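import Vale.Agent.P073.H655.RowsD

/-!
# P073, row D1: a relatively closed set with null coordinate projections does not separate
-/

namespace Vale.Agent.P073.H694

open MeasureTheory Set Filter Topology Metric
open Vale.Agent.P073.St (V)

variable {K' : Set V}

/-- generic points near `a` -/
theorem exists_generic (hN : ∀ l : Fin 3, volume ((fun y : V => y l) '' K') = 0) (a : V) {δ : ℝ}
    (hδ : 0 < δ) : ∃ a' ∈ ball a δ, ∀ l, a' l ∉ (fun y : V => y l) '' K' := by
  have key : ∀ l, ∃ t : ℝ, |t - a l| < δ ∧ t ∉ (fun y : V => y l) '' K' := by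
    intro l
    by_contra hcon
    push Not at hcon
    have h1 : Ioo (a l - δ) (a l + δ) ⊆ (fun y : V => y l) '' K' := by
      intro t ht
      exact hcon t (by rw [abs_lt]; constructor <;> linarith [ht.1, ht.2])
    have h2 := measure_mono_null h1 (hN l)
    rw [Real.volume_Ioo, ENNReal.ofReal_eq_zero] at h2
    linarith
  choose t ht1 ht2 using key
  refine ⟨t, ?_, ht2⟩
  rw [mem_ball, dist_pi_lt_iff hδ]
  intro i
  rw [Real.dist_eq]
  exact ht1 i

theorem update_mem_ball {c x y : V} {r : ℝ} (hx : x ∈ ball c r) (hy : y ∈ ball c r) (i : Fin 3) :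
    Function.update x i (y i) ∈ ball c r := by
  have hr : 0 < r := pos_of_mem_ball hx
  rw [mem_ball, dist_pi_lt_iff hr] at *
  intro j
  by_cases hj : j = i
  · subst hj; rw [Function.update_self]; exact hy j
  · rw [Function.update_of_ne hj]; exact hx j

theorem seg_step {c p q : V} {r : ℝ} (hp : p ∈ ball c r) (hq : q ∈ ball c r) {j : Fin 3}
    (hpq : q j = p j) (hj : p j ∉ (fun y : V => y j) '' K') :
    JoinedIn (ball c r \ K') p q := by
  refine JoinedIn.of_segment_subset fun z hz => ⟨(convex_ball c r).segment_subset hp hq hz, ?_⟩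
  intro hzK
  apply hj
  refine ⟨z, hzK, ?_⟩
  obtain ⟨u, v, hu, hv, huv, rfl⟩ := hz
  simp only [Pi.add_apply, Pi.smul_apply, smul_eq_mul]
  rw [hpq, ← add_mul, huv, one_mul]

theorem joined_ball {Λ : Set V} (hO : IsOpen (Λ \ K'))
    (hN : ∀ l : Fin 3, volume ((fun y : V => y l) '' K') = 0) {c : V} {r : ℝ}
    (hB : ball c r ⊆ Λ) {a b : V} (ha : a ∈ ball c r \ K') (hb : b ∈ ball c r \ K') :
    JoinedIn (ball c r \ K') a b := by
  have hloc : ∀ x ∈ ball c r \ K', ∃ x' ∈ ball c r, JoinedIn (ball c r \ K') x x' ∧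
      ∀ l, x' l ∉ (fun y : V => y l) '' K' := by
    intro x hx
    have h1 : IsOpen (ball c r ∩ (Λ \ K')) := isOpen_ball.inter hO
    obtain ⟨δ, hδ, hδs⟩ := Metric.isOpen_iff.1 h1 x ⟨hx.1, hB hx.1, hx.2⟩
    obtain ⟨x', hx', hx2⟩ := exists_generic hN x hδ
    refine ⟨x', (hδs hx').1, JoinedIn.of_segment_subset fun z hz => ?_, hx2⟩
    have h2 := hδs ((convex_ball x δ).segment_subset (mem_ball_self hδ) hx' hz)
    exact ⟨h2.1, h2.2.2⟩
  obtain ⟨a', ha1, ha2, ha3⟩ := hloc a ha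
  obtain ⟨b', hb1, hb2, hb3⟩ := hloc b hb
  set p1 : V := Function.update a' 0 (b' 0) with hp1
  set p2 : V := Function.update p1 1 (b' 1) with hp2
  set p3 : V := Function.update p2 2 (b' 2) with hp3
  have m1 : p1 ∈ ball c r := update_mem_ball ha1 hb1 0
  have m2 : p2 ∈ ball c r := update_mem_ball m1 hb1 1
  have e3 : p3 = b' := by
    funext i
    fin_cases i <;> simp [hp1, hp2, hp3]
  have s1 : JoinedIn (ball c r \ K') a' p1 :=
    seg_step (j := 1) ha1 m1 (by simp [hp1]) (ha3 1)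
  have s2 : JoinedIn (ball c r \ K') p1 p2 :=
    seg_step (j := 2) m1 m2 (by simp [hp2]) (by simpa [hp1] using ha3 2)
  have s3 : JoinedIn (ball c r \ K') p2 b' :=
    seg_step (j := 0) m2 hb1 (by simp [hp1, hp2]) (by simpa [hp1, hp2] using hb3 0)
  exact ha2.trans (s1.trans (s2.trans (s3.trans hb2.symm)))

theorem preconn_ball {Λ : Set V} (hO : IsOpen (Λ \ K'))
    (hN : ∀ l : Fin 3, volume ((fun y : V => y l) '' K') = 0) {c : V} {r : ℝ}
    (hB : ball c r ⊆ Λ) : IsPreconnected (ball c r \ K') := by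
  rcases (ball c r \ K').eq_empty_or_nonempty with h | ⟨a, ha⟩
  · rw [h]; exact isPreconnected_empty
  · exact (show IsPathConnected (ball c r \ K') from
      ⟨a, ha, fun {b} hb => joined_ball hO hN hB ha hb⟩).isConnected.isPreconnected

theorem specConn : H655.SpecConn := by
  intro Λ K' hΛ hΛc hK hO hN
  intro u v hu hv huv hnu hnv
  by_contra hcon
  rw [not_nonempty_iff_eq_empty] at hcon
  set U : Set V := {x | ∃ r > 0, ball x r ⊆ Λ ∧ ball x r \ K' ⊆ u} with hU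
  set W : Set V := {x | ∃ r > 0, ball x r ⊆ Λ ∧ ball x r \ K' ⊆ v} with hW
  have hopen : ∀ s : Set V, IsOpen {x | ∃ r > 0, ball x r ⊆ Λ ∧ ball x r \ K' ⊆ s} := by
    intro s
    rw [Metric.isOpen_iff]
    rintro x ⟨r, hr, h1, h2⟩
    refine ⟨r / 2, by positivity, fun y hy => ⟨r / 2, by positivity, ?_, ?_⟩⟩
    · refine (ball_subset_ball' ?_).trans h1
      rw [mem_ball] at hy; linarith
    · refine (sdiff_subset_sdiff_left (ball_subset_ball' ?_)).trans h2
      rw [mem_ball] at hy; linarith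
  have hsep : ∀ x ∈ Λ, x ∈ U ∨ x ∈ W := by
    intro x hx
    obtain ⟨r, hr, hrs⟩ := Metric.isOpen_iff.1 hΛ x hx
    have h1 := preconn_ball hO hN hrs
    have h2 : ball x r \ K' ⊆ Λ \ K' := sdiff_subset_sdiff_left hrs
    rcases isPreconnected_iff_subset_of_disjoint.1 h1 u v hu hv (h2.trans huv)
      (by
        rw [← subset_empty_iff, ← hcon]
        exact inter_subset_inter_left _ h2) with h | h
    · exact Or.inl ⟨r, hr, hrs, h⟩
    · exact Or.inr ⟨r, hr, hrs, h⟩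
  have hpt : ∀ s : Set V, IsOpen s → ((Λ \ K') ∩ s).Nonempty →
      (Λ ∩ {x | ∃ r > 0, ball x r ⊆ Λ ∧ ball x r \ K' ⊆ s}).Nonempty := by
    rintro s hs ⟨x, hx, hxs⟩
    obtain ⟨r, hr, hrs⟩ := Metric.isOpen_iff.1 (hΛ.inter hs) x ⟨hx.1, hxs⟩
    exact ⟨x, hx.1, r, hr, fun y hy => (hrs hy).1, fun y hy => (hrs hy.1).2⟩
  obtain ⟨x, hx, ⟨r1, hr1, h11, h12⟩, ⟨r2, hr2, h21, h22⟩⟩ :=
    hΛc U W (hopen u) (hopen v) (fun x hx => hsep x hx) (hpt u hu hnu) (hpt v hv hnv)
  obtain ⟨y, hy, hyg⟩ := exists_generic hN x (lt_min hr1 hr2)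
  have hyK : y ∉ K' := fun h => hyg 0 ⟨y, h, rfl⟩
  have hy1 : y ∈ ball x r1 := ball_subset_ball (min_le_left _ _) hy
  have hy2 : y ∈ ball x r2 := ball_subset_ball (min_le_right _ _) hy
  have : y ∈ (Λ \ K') ∩ (u ∩ v) := ⟨⟨h11 hy1, hyK⟩, h12 ⟨hy1, hyK⟩, h22 ⟨hy2, hyK⟩⟩
  rw [hcon] at this
  exact this

end Vale.Agent.P073.H694
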