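import Vale.Agent.P073.H694.Fill1
import Vale.Agent.P073.ALX.Alexander

/-!
# P073, row C: filling cubes by conical homeomorphisms
-/

namespace Vale.Agent.P073.H694

/-- **Row C** -/
theorem specFill : H880.SpecFill := specFill_of fun S hS => _root_.P073.ALX.specALX3 S hS

end Vale.Agent.P073.H694
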