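import Vale.Agent.P073.H655.RowsD
import Vale.Agent.P073.Bdl.B2

/-!
# P073, row D2: the fine approximation theorem with the definitions of `St.lean`
-/

namespace Vale.Agent.P073.H694

open MeasureTheory Set Filter Topology Metric
open Vale.Agent.P073.St (V Mat euc)
open scoped ContDiff ENNReal NNReal InnerProductSpace

/-- the identity, as a map to Euclidean space -/
noncomputable def eE : V ≃L[ℝ] E3 := (PiLp.continuousLinearEquiv 2 ℝ (fun _ : Fin 3 => ℝ)).symm

theorem eE_apply (v : V) (i : Fin 3) : eE v i = v i := rfl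

theorem eE_symm_apply (v : E3) (i : Fin 3) : eE.symm v i = v i := rfl

theorem norm_eE (v : V) : ‖eE v‖ = euc v := by
  rw [EuclideanSpace.norm_eq]
  unfold euc
  congr 1
  refine Finset.sum_congr rfl fun i _ => ?_
  rw [eE_apply, Real.norm_eq_abs, sq_abs]

theorem norm_sub_eE (y : E3) (a : V) : ‖y - eE a‖ = euc (eE.symm y - a) := by
  rw [← norm_eE, map_sub, eE.apply_symm_apply]

theorem euc_symm_sub (x y : E3) : euc (eE.symm x - eE.symm y) = ‖x - y‖ := by
  rw [← norm_eE, map_sub, eE.apply_symm_apply, eE.apply_symm_apply]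

theorem mp_eE : MeasurePreserving (eE : V → E3) := PiLp.volume_preserving_toLp (Fin 3)

theorem me_eE : MeasurableEmbedding (eE : V → E3) := eE.toHomeomorph.measurableEmbedding

/-- conjugation -/
noncomputable def cf (f : V → V) (y : E3) : E3 := eE (f (eE.symm y))

/-- conjugation -/
noncomputable def cg (g : E3 → E3) (x : V) : V := eE.symm (g (eE x))

variable {Ω Λ : Set V} {f : V → V}

theorem homeo_E (h : St.IsHomeo Ω Λ f) : IsHomeo (eE.symm ⁻¹' Ω) (eE.symm ⁻¹' Λ) (cf f) := by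
  obtain ⟨k, ⟨h1, h2⟩, h3, h4⟩ := h
  have inv1 : LeftInvOn (cf k) (cf f) (eE.symm ⁻¹' Ω) := by
    intro x hx
    simp only [cf, eE.symm_apply_apply]
    rw [(h1 _ hx).2, eE.apply_symm_apply]
  have inv2 : RightInvOn (cf k) (cf f) (eE.symm ⁻¹' Λ) := by
    intro x hx
    simp only [cf, eE.symm_apply_apply]
    rw [(h2 _ hx).2, eE.apply_symm_apply]
  have m1 : MapsTo (cf f) (eE.symm ⁻¹' Ω) (eE.symm ⁻¹' Λ) := by
    intro x hx
    simp only [cf, mem_preimage, eE.symm_apply_apply]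
    exact (h1 _ hx).1
  have m2 : MapsTo (cf k) (eE.symm ⁻¹' Λ) (eE.symm ⁻¹' Ω) := by
    intro x hx
    simp only [cf, mem_preimage, eE.symm_apply_apply]
    exact (h2 _ hx).1
  refine ⟨⟨m1, inv1.injOn, inv2.surjOn m2⟩, ?_, cf k, ?_, inv1, inv2⟩
  · exact eE.continuous.comp_continuousOn
      (h3.comp eE.symm.continuous.continuousOn (fun _ hx => hx))
  · exact eE.continuous.comp_continuousOn
      (h4.comp eE.symm.continuous.continuousOn (fun _ hx => hx))

theorem contDiffOn_cg {g : E3 → E3} (h : ContDiffOn ℝ ∞ g (eE.symm ⁻¹' Ω)) (i : Fin 3) :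
    St.Sm Ω (fun x => cg g x i) := by
  have h1 : ContDiffOn ℝ ∞ (fun x : V => g (eE x)) Ω :=
    h.comp eE.contDiff.contDiffOn (fun x hx => by
      simp only [mem_preimage, eE.symm_apply_apply]; exact hx)
  have h2 : ContDiffOn ℝ ∞ (cg g) Ω := eE.symm.contDiff.comp_contDiffOn h1
  exact contDiffOn_pi.1 h2 i

theorem diffeo_V {g : E3 → E3} (h : IsDiffeo (eE.symm ⁻¹' Ω) (eE.symm ⁻¹' Λ) g) :
    St.IsDiffeo Ω Λ (cg g) := by
  obtain ⟨h1, h2, k, h3, h4⟩ := h
  have mem : ∀ {A : Set V} {x : V}, x ∈ A → eE x ∈ eE.symm ⁻¹' A := fun {A x} hx => by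
    simp only [mem_preimage, eE.symm_apply_apply]; exact hx
  refine ⟨cg k, ⟨fun x hx => ⟨h1.mapsTo (mem hx), ?_⟩, fun y hy => ⟨?_, ?_⟩⟩,
    fun i => contDiffOn_cg h2 i, fun i => contDiffOn_cg h3 i⟩
  · simp only [cg, eE.apply_symm_apply]
    rw [h4.1 (mem hx), eE.symm_apply_apply]
  · obtain ⟨x', hx', hxy⟩ := h1.surjOn (mem hy)
    simp only [cg]
    rw [← hxy, h4.1 hx']
    exact hx'
  · simp only [cg, eE.apply_symm_apply]
    rw [h4.2 (mem hy), eE.symm_apply_apply]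

/-- the linear map of an invertible matrix -/
theorem exists_equiv {S : Mat} (hS : St.NonSing S) :
    ∃ S' : E3 ≃L[ℝ] E3, ∀ v : V, S' (eE v) = eE (St.ap S v) := by
  let A : V →ₗ[ℝ] V :=
    { toFun := St.ap S
      map_add' := fun x y => by
        funext i; simp only [St.ap, Pi.add_apply, mul_add, Finset.sum_add_distrib]
      map_smul' := fun c x => by
        funext i
        simp only [St.ap, Pi.smul_apply, smul_eq_mul, RingHom.id_apply, Finset.mul_sum]
        exact Finset.sum_congr rfl fun j _ => by ring }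
  have hA : Function.Injective A := by
    rw [injective_iff_map_eq_zero]
    exact fun v hv => hS v hv
  let A' : V ≃L[ℝ] V := (LinearEquiv.ofInjectiveEndo A hA).toContinuousLinearEquiv
  refine ⟨eE.symm.trans (A'.trans eE), fun v => ?_⟩
  simp only [ContinuousLinearEquiv.trans_apply, eE.symm_apply_apply]
  rfl

theorem ball_mem (a : V) {r : ℝ} (hr : 0 < r) : ball (eE a) r ∈ 𝓝 (eE a) := ball_mem_nhds _ hr

theorem mem_ball_E {a : V} {r : ℝ} {y : E3} (hy : y ∈ ball (eE a) r) :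
    euc (eE.symm y - a) < r := by
  rw [← norm_sub_eE, ← dist_eq_norm]; exact hy

theorem small_E {K K' : ℝ} {a : V} (hKK : K ≤ K') (h : St.SmallDistortionAt K f a) :
    SmallDistortionAt K' (cf f) (eE a) := by
  obtain ⟨r, S, T, hr, hS, hT, H⟩ := h
  obtain ⟨S', hS'⟩ := exists_equiv hS
  obtain ⟨T', hT'⟩ := exists_equiv hT
  refine ⟨ball (eE a) r, ball_mem a hr, S', T', fun x hx y hy => ?_⟩
  obtain ⟨h1, h2⟩ := H (eE.symm x) (eE.symm y) (mem_ball_E hx) (mem_ball_E hy)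
  have e1 : ‖S' (x - y)‖ = euc (St.ap S (eE.symm x - eE.symm y)) := by
    rw [← norm_eE, ← hS', map_sub eE, eE.apply_symm_apply, eE.apply_symm_apply]
  have e2 : ‖T' (cf f x - cf f y)‖ = euc (St.ap T (f (eE.symm x) - f (eE.symm y))) := by
    rw [← norm_eE, ← hT', map_sub eE]; rfl
  rw [e1, e2]
  refine ⟨h1, h2.trans (mul_le_mul_of_nonneg_right hKK (Real.sqrt_nonneg _))⟩

theorem dir_E {a : V} (h : St.DirMonotoneAt f a) : DirMonotoneAt (cf f) (eE a) := by
  obtain ⟨⟨r, L, hr, H⟩, H2⟩ := h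
  refine ⟨⟨ball (eE a) r, ball_mem a hr, L.toNNReal, ?_⟩, ?_⟩
  · refine LipschitzOnWith.of_dist_le_mul fun x hx y hy => ?_
    rw [dist_eq_norm, dist_eq_norm]
    have h1 := H (eE.symm x) (eE.symm y) (mem_ball_E hx) (mem_ball_E hy)
    have e2 : ‖cf f x - cf f y‖ = euc (f (eE.symm x) - f (eE.symm y)) := by
      rw [← norm_eE, map_sub]; rfl
    rw [e2]
    refine h1.trans ?_
    rw [euc_symm_sub]
    exact mul_le_mul_of_nonneg_right (Real.le_coe_toNNReal L) (norm_nonneg _)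
  · intro h hh
    obtain ⟨n, s, hs, H3⟩ := H2 (eE.symm h) (by
      intro h0; apply hh; rw [← eE.apply_symm_apply h, h0, map_zero])
    refine ⟨eE n, ball (eE a) s, ball_mem a hs, fun x hx t ht hxt => ?_⟩
    have h1 := H3 (eE.symm x) t ht (mem_ball_E hx) (by
      have := mem_ball_E hxt
      rwa [map_add, map_smul] at this)
    refine h1.trans (le_of_eq ?_)
    rw [PiLp.inner_apply]
    refine Finset.sum_congr rfl fun i _ => ?_
    simp only [cf, map_add, map_smul]
    rw [eE_apply]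
    simp [mul_comm, eE_apply]

/-- conjugation of derivatives -/
noncomputable def cL (T : E3 →L[ℝ] E3) : V →L[ℝ] V :=
  (eE.symm : E3 →L[ℝ] V).comp (T.comp (eE : V →L[ℝ] E3))

/-- the constant -/
noncomputable def cM : ℝ := ‖(eE.symm : E3 →L[ℝ] V)‖ * ‖(eE : V →L[ℝ] E3)‖ +
  ‖(eE.symm : E3 →L[ℝ] V)‖ + 1

theorem cM_pos : 0 < cM := by unfold cM; positivity

theorem norm_cL_le (T : E3 →L[ℝ] E3) : ‖cL T‖ ≤ cM * ‖T‖ := by
  have h1 : ‖cL T‖ ≤ ‖(eE.symm : E3 →L[ℝ] V)‖ * (‖T‖ * ‖(eE : V →L[ℝ] E3)‖) :=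
    (ContinuousLinearMap.opNorm_comp_le _ _).trans
      (mul_le_mul_of_nonneg_left (ContinuousLinearMap.opNorm_comp_le _ _) (norm_nonneg _))
  have h2 : 0 ≤ (‖(eE.symm : E3 →L[ℝ] V)‖ + 1) * ‖T‖ := by positivity
  unfold cM
  linarith

theorem norm_symm_le (v : E3) : ‖eE.symm v‖ ≤ cM * ‖v‖ := by
  have h1 : ‖eE.symm v‖ ≤ ‖(eE.symm : E3 →L[ℝ] V)‖ * ‖v‖ :=
    (eE.symm : E3 →L[ℝ] V).le_opNorm v
  have h2 : 0 ≤ (‖(eE.symm : E3 →L[ℝ] V)‖ * ‖(eE : V →L[ℝ] E3)‖ + 1) * ‖v‖ := by positivity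
  unfold cM
  linarith

theorem cL_sub (S T : E3 →L[ℝ] E3) : cL S - cL T = cL (S - T) := by
  ext v
  simp [cL]

theorem fderiv_cg (g : E3 → E3) (x : V) : fderiv ℝ (cg g) x = cL (fderiv ℝ g (eE x)) := by
  have h1 : cg g = eE.symm ∘ (g ∘ eE) := rfl
  rw [h1, ContinuousLinearEquiv.comp_fderiv, ContinuousLinearEquiv.comp_right_fderiv]
  rfl

theorem measurable_cL : Measurable cL := by
  have : Continuous cL := by unfold cL; fun_prop
  exact this.measurable

theorem specFineLoc : H655.SpecFineLoc := by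
  intro Ω Λ f K hΩ hΩb hΛ hΛc hΛb hf hK hloc
  have im : ∀ A : Set V, eE.symm ⁻¹' A = eE '' A := fun A =>
    (eE.image_eq_preimage_symm A).symm
  have hΩ' : IsOpen (eE.symm ⁻¹' Ω) := hΩ.preimage eE.symm.continuous
  have hΛ' : IsOpen (eE.symm ⁻¹' Λ) := hΛ.preimage eE.symm.continuous
  have hΛc' : IsPreconnected (eE.symm ⁻¹' Λ) := by
    rw [im]; exact hΛc.image _ eE.continuous.continuousOn
  have hΩb' : Bornology.IsBounded (eE.symm ⁻¹' Ω) := by
    rw [im]; exact eE.lipschitz.isBounded_image hΩb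
  have hΛb' : Bornology.IsBounded (eE.symm ⁻¹' Λ) := by
    rw [im]; exact eE.lipschitz.isBounded_image hΛb
  have hK0 : (0 : ℝ) ≤ max K 0 := le_max_right _ _
  have hK5 : (max K 0) ^ 2 < 5 := by
    rw [← Real.lt_sqrt hK0]
    exact max_lt hK (Real.sqrt_pos.2 (by norm_num))
  obtain ⟨F, C, hF⟩ := fine_of_local hΩ' hΩb' hΛ' hΛc' hΛb' (homeo_E hf) hK0 hK5
    (fun a ha => by
      rcases hloc (eE.symm a) ha with h | h
      · left
        have := small_E (le_max_left K 0) h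
        rwa [eE.apply_symm_apply] at this
      · right
        have := dir_E h
        rwa [eE.apply_symm_apply] at this)
  have mem : ∀ {x : V}, x ∈ Ω → eE x ∈ eE.symm ⁻¹' Ω := fun {x} hx => by
    simp only [mem_preimage, eE.symm_apply_apply]; exact hx
  refine ⟨fun x => cL (F (eE x)), fun x => cM * C (eE x),
    measurable_cL.comp (hF.meas.comp eE.continuous.measurable), ?_,
    fun x hx => mul_pos cM_pos (hF.posC _ (mem hx)), fun x hx => ?_, ?_⟩
  · exact continuousOn_const.mul (hF.contC.comp eE.continuous.continuousOn (fun x hx => mem hx))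
  · exact (norm_cL_le _).trans (mul_le_mul_of_nonneg_left (hF.bdF _ (mem hx)) cM_pos.le)
  intro w hw
  have hw' : ContinuousOn (fun y : E3 => cM * |w (eE.symm y)|) (eE.symm ⁻¹' Ω) :=
    continuousOn_const.mul (hw.comp eE.symm.continuous.continuousOn (fun _ hx => hx)).abs
  obtain ⟨g, hg1, hg2, hg3, -, hg5⟩ := hF.approx _ hw'
  refine ⟨cg g, diffeo_V hg1, fun x hx => ?_, fun x hx => ?_, ?_⟩
  · have h1 := hg2 (eE x) (mem hx)
    simp only [eE.symm_apply_apply] at h1
    have h2 : cg g x - f x = eE.symm (g (eE x) - cf f (eE x)) := by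
      simp only [cg, cf, map_sub, eE.symm_apply_apply]
    have h3 := norm_symm_le (g (eE x) - cf f (eE x))
    rw [h2]
    calc ‖eE.symm (g (eE x) - cf f (eE x))‖ * w x
        ≤ ‖eE.symm (g (eE x) - cf f (eE x))‖ * |w x| :=
          mul_le_mul_of_nonneg_left (le_abs_self _) (norm_nonneg _)
      _ ≤ (cM * ‖g (eE x) - cf f (eE x)‖) * |w x| :=
          mul_le_mul_of_nonneg_right h3 (abs_nonneg _)
      _ = ‖g (eE x) - cf f (eE x)‖ * (cM * |w x|) := by ring
      _ ≤ 1 := h1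
  · rw [fderiv_cg]
    exact (norm_cL_le _).trans (mul_le_mul_of_nonneg_left (hg3 _ (mem hx)) cM_pos.le)
  · have hpre : Ω = eE ⁻¹' (eE.symm ⁻¹' Ω) := by
      ext x; simp
    calc ∫⁻ x in Ω, ENNReal.ofReal (w x * ‖fderiv ℝ (cg g) x - cL (F (eE x))‖)
        ≤ ∫⁻ x in Ω, ENNReal.ofReal ((cM * |w (eE.symm (eE x))|) *
            ‖fderiv ℝ g (eE x) - F (eE x)‖) := by
          refine lintegral_mono fun x => ENNReal.ofReal_le_ofReal ?_
          rw [eE.symm_apply_apply, fderiv_cg, cL_sub]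
          have h1 := norm_cL_le (fderiv ℝ g (eE x) - F (eE x))
          calc w x * ‖cL (fderiv ℝ g (eE x) - F (eE x))‖
              ≤ |w x| * ‖cL (fderiv ℝ g (eE x) - F (eE x))‖ :=
                mul_le_mul_of_nonneg_right (le_abs_self _) (norm_nonneg _)
            _ ≤ |w x| * (cM * ‖fderiv ℝ g (eE x) - F (eE x)‖) :=
                mul_le_mul_of_nonneg_left h1 (abs_nonneg _)
            _ = _ := by ring
      _ = ∫⁻ y in eE.symm ⁻¹' Ω, ENNReal.ofReal ((cM * |w (eE.symm y)|) *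
            ‖fderiv ℝ g y - F y‖) := by
          conv_lhs => rw [hpre]
          exact mp_eE.setLIntegral_comp_preimage_emb me_eE
            (fun y => ENNReal.ofReal ((cM * |w (eE.symm y)|) * ‖fderiv ℝ g y - F y‖)) _
      _ ≤ 1 := hg5

end Vale.Agent.P073.H694
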