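import Vale.Agent.P073.H655.RowsM

/-!
# P073, row M2: coverings by non overlapping cubes with controlled `s`-sums
-/

namespace Vale.Agent.P073.H694

open MeasureTheory Set Filter Topology Metric
open Vale.Agent.P073.St (V)
open Vale.Agent.P073.SQ (cube)
open scoped ENNReal

/-- the dyadic scale -/
noncomputable def sc (k : ℕ) : ℝ := (1 / 2 : ℝ) ^ k

theorem sc_pos (k : ℕ) : 0 < sc k := by unfold sc; positivity

theorem sc_mul (k : ℕ) : sc k * 2 ^ k = 1 := by
  unfold sc; rw [← mul_pow]; norm_num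

theorem sc_anti {k l : ℕ} (h : k ≤ l) : sc l ≤ sc k := by
  unfold sc; exact pow_le_pow_of_le_one (by norm_num) (by norm_num) h

/-- choice of the scale -/
theorem exists_scale (s : ℝ) (hs : 0 < s) (a : ℝ) (ha : 0 ≤ a) (m : ℕ) (ham : a ≤ sc m)
    (ε : ℝ) (hε : 0 < ε) :
    ∃ k : ℕ, m ≤ k ∧ a ≤ sc k ∧ (sc k) ^ s ≤ (2 * a) ^ s + ε := by
  rcases ha.eq_or_lt with h0 | h0
  · subst h0
    have h1 : Tendsto (fun k : ℕ => (sc k) ^ s) atTop (𝓝 0) := by
      have h2 : Tendsto (fun k : ℕ => ((1 / 2 : ℝ) ^ s) ^ k) atTop (𝓝 0) :=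
        tendsto_pow_atTop_nhds_zero_of_lt_one (by positivity)
          (Real.rpow_lt_one (by norm_num) (by norm_num) hs)
      refine h2.congr fun k => ?_
      unfold sc
      rw [← Real.rpow_natCast, ← Real.rpow_natCast, ← Real.rpow_mul (by norm_num),
        ← Real.rpow_mul (by norm_num), mul_comm]
    have h3 := ((h1.eventually (gt_mem_nhds hε)).and (eventually_ge_atTop m)).exists
    obtain ⟨k, hk, hmk⟩ := h3
    refine ⟨k, hmk, (sc_pos k).le, ?_⟩
    rw [mul_zero, Real.zero_rpow hs.ne', zero_add]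
    exact hk.le
  · have ha1 : a ≤ 1 := ham.trans (by unfold sc; exact pow_le_one₀ (by norm_num) (by norm_num))
    obtain ⟨k, hk1, hk2⟩ := exists_nat_pow_near_of_lt_one h0 ha1 (by norm_num : (0:ℝ) < 1 / 2)
      (by norm_num)
    refine ⟨k, ?_, hk2, ?_⟩
    · by_contra hcon
      push Not at hcon
      have : sc m ≤ (1 / 2 : ℝ) ^ (k + 1) := sc_anti hcon
      linarith
    · have h4 : sc k ≤ 2 * a := by
        have : (1 / 2 : ℝ) ^ (k + 1) = sc k / 2 := by unfold sc; ring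
        linarith
      have := Real.rpow_le_rpow (sc_pos k).le h4 hs.le
      linarith

/-- covering at a scale -/
theorem exists_cover_scale (s : ℝ) (hs : 0 < s) (A : Set V) (hA : Measure.hausdorffMeasure s A < ⊤)
    (r η : ℝ≥0∞) (hr : 0 < r) (hη : 0 < η) :
    ∃ t : ℕ → Set V, A ⊆ ⋃ n, t n ∧ (∀ n, ediam (t n) ≤ r) ∧
      ∑' n, ediam (t n) ^ s ≤ Measure.hausdorffMeasure s A + η := by
  have h1 : Measure.hausdorffMeasure s A < Measure.hausdorffMeasure s A + η :=
    ENNReal.lt_add_right hA.ne hη.ne'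
  rw [Measure.hausdorffMeasure_apply] at h1
  have h2 := (le_iSup₂ (f := fun (r : ℝ≥0∞) (_ : 0 < r) =>
    ⨅ (t : ℕ → Set V) (_ : A ⊆ ⋃ n, t n) (_ : ∀ n, ediam (t n) ≤ r),
      ∑' n, ⨆ _ : (t n).Nonempty, ediam (t n) ^ s) r hr).trans_lt h1
  rw [← Measure.hausdorffMeasure_apply] at h2
  simp only [iInf_lt_iff] at h2
  obtain ⟨t, ht1, ht2, ht3⟩ := h2
  refine ⟨t, ht1, ht2, le_trans (ENNReal.tsum_le_tsum fun n => ?_) ht3.le⟩
  rcases (t n).eq_empty_or_nonempty with h | h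
  · rw [h]; simp [hs]
  · exact le_iSup_of_le h le_rfl

/-- the cell of level `k` -/
noncomputable def cell (k : ℕ) (x : V) : Fin 3 → ℤ := fun i => ⌊x i * 2 ^ k⌋

theorem cell_le {k l : ℕ} (h : k ≤ l) {x y : V} (hxy : cell l x = cell l y) :
    cell k x = cell k y := by
  funext i
  have hi : ⌊x i * 2 ^ l⌋ = ⌊y i * 2 ^ l⌋ := congrFun hxy i
  obtain ⟨d, rfl⟩ := Nat.exists_eq_add_of_le h
  have key : ∀ (w : ℝ) (n : ℤ), n ≤ ⌊w * 2 ^ k⌋ ↔ n * 2 ^ d ≤ ⌊w * 2 ^ (k + d)⌋ := by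
    intro w n
    rw [Int.le_floor, Int.le_floor]
    push_cast
    rw [pow_add, ← mul_assoc]
    exact (mul_le_mul_iff_left₀ (by positivity)).symm
  unfold cell
  apply le_antisymm
  · rw [key, ← hi, ← key]
  · rw [key, hi, ← key]

/-- the centre of the cube of index `(k, z)` -/
noncomputable def cen (q : ℕ × (Fin 3 → ℤ)) : V := fun i => (2 * (q.2 i : ℝ) + 1) * sc (q.1 + 1)

theorem mem_cube_iff (q : ℕ × (Fin 3 → ℤ)) (x : V) :
    x ∈ cube (cen q) (sc (q.1 + 1)) ↔ ∀ i, (q.2 i : ℝ) ≤ x i * 2 ^ q.1 ∧ x i * 2 ^ q.1 ≤ q.2 i + 1 := by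
  have h1 : sc (q.1 + 1) = sc q.1 / 2 := by unfold sc; ring
  have h2 := sc_mul q.1
  have h3 : (0 : ℝ) < 2 ^ q.1 := by positivity
  have h4 : sc q.1 = 1 / 2 ^ q.1 := by field_simp; linarith
  unfold cube cen
  simp only [mem_ofPred_eq]
  refine forall_congr' fun i => ?_
  rw [h1, h4, abs_le]
  constructor
  · rintro ⟨ha, hb⟩
    constructor
    · have := mul_le_mul_of_nonneg_right ha h3.le
      field_simp at this
      linarith
    · have := mul_le_mul_of_nonneg_right hb h3.le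
      field_simp at this
      linarith
  · rintro ⟨ha, hb⟩
    constructor
    · rw [← mul_le_mul_iff_left₀ h3]
      field_simp
      linarith
    · rw [← mul_le_mul_iff_left₀ h3]
      field_simp
      linarith

theorem mem_cube_cell (k : ℕ) (x : V) : x ∈ cube (cen (k, cell k x)) (sc (k + 1)) := by
  rw [mem_cube_iff (k, cell k x)]
  intro i
  exact ⟨Int.floor_le _, (Int.lt_floor_add_one _).le⟩

/-- the part of the cube outside the half open cell is null -/
theorem cube_diff_null (q : ℕ × (Fin 3 → ℤ)) :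
    volume (cube (cen q) (sc (q.1 + 1)) \ {x | cell q.1 x = q.2}) = 0 := by
  have h1 : cube (cen q) (sc (q.1 + 1)) \ {x | cell q.1 x = q.2} ⊆
      ⋃ i : Fin 3, {x : V | x i = ((q.2 i : ℝ) + 1) * sc q.1} := by
    rintro x ⟨hx, hx2⟩
    rw [mem_cube_iff] at hx
    by_contra hcon
    simp only [mem_iUnion, mem_ofPred_eq, not_exists] at hcon
    apply hx2
    simp only [mem_ofPred_eq]
    funext i
    unfold cell
    rw [Int.floor_eq_iff]
    refine ⟨(hx i).1, lt_of_le_of_ne (hx i).2 fun heq => hcon i ?_⟩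
    rw [← heq, mul_assoc, mul_comm (2 ^ q.1) (sc q.1), sc_mul, mul_one]
  refine measure_mono_null h1 (measure_iUnion_null fun i => ?_)
  have h2 : {x : V | x i = ((q.2 i : ℝ) + 1) * sc q.1} =
      (Set.pi univ fun j => if j = i then {((q.2 i : ℝ) + 1) * sc q.1} else univ) := by
    ext x
    simp only [mem_ofPred_eq, Set.mem_pi, mem_univ, forall_true_left]
    constructor
    · intro h j
      by_cases hj : j = i
      · subst hj; simp [h]
      · simp [hj]
    · intro h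
      have := h i
      simpa using this
  rw [h2, volume_pi_pi]
  exact Finset.prod_eq_zero (Finset.mem_univ i) (by simp)

theorem inter_null {q q' : ℕ × (Fin 3 → ℤ)}
    (h : ∀ y, cell q.1 y = q.2 → cell q'.1 y = q'.2 → False) :
    volume (cube (cen q) (sc (q.1 + 1)) ∩ cube (cen q') (sc (q'.1 + 1))) = 0 := by
  have h1 : cube (cen q) (sc (q.1 + 1)) ∩ cube (cen q') (sc (q'.1 + 1)) ⊆
      (cube (cen q) (sc (q.1 + 1)) \ {x | cell q.1 x = q.2}) ∪
      (cube (cen q') (sc (q'.1 + 1)) \ {x | cell q'.1 x = q'.2}) := by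
    rintro y ⟨h1, h2⟩
    by_cases h3 : cell q.1 y = q.2
    · right
      exact ⟨h2, fun h4 => h y h3 h4⟩
    · left
      exact ⟨h1, h3⟩
  exact measure_mono_null h1 (measure_union_null (cube_diff_null q) (cube_diff_null q'))

theorem dist_le_of_mem {k : ℕ} {y w : V} {z : Fin 3 → ℤ}
    (hz1 : ∀ i, cell k y i - 1 ≤ z i) (hz2 : ∀ i, z i ≤ cell k y i + 1)
    (hw : w ∈ cube (cen (k, z)) (sc (k + 1))) : dist y w ≤ 2 * sc k := by
  rw [mem_cube_iff (k, z)] at hw
  have h2 := sc_mul k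
  have h3 : (0 : ℝ) < 2 ^ k := by positivity
  rw [dist_pi_le_iff (by have := sc_pos k; positivity)]
  intro i
  obtain ⟨ha, hb⟩ := hw i
  simp only at ha hb
  have h4 : ((cell k y i : ℤ) : ℝ) - 1 ≤ z i := by exact_mod_cast hz1 i
  have h5 : (z i : ℝ) ≤ (cell k y i : ℤ) + 1 := by exact_mod_cast hz2 i
  have h6 : ((cell k y i : ℤ) : ℝ) ≤ y i * 2 ^ k := Int.floor_le _
  have h7 : y i * 2 ^ k < ((cell k y i : ℤ) : ℝ) + 1 := Int.lt_floor_add_one _
  rw [Real.dist_eq]
  have h8 : |y i - w i| * 2 ^ k ≤ 2 := by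
    rw [← abs_of_pos h3, ← abs_mul, abs_le]
    constructor <;> nlinarith
  have h9 : |y i - w i| * 2 ^ k ≤ (2 * sc k) * 2 ^ k := by
    rw [mul_assoc, h2]; linarith
  exact le_of_mul_le_mul_right h9 h3

/-- neighbouring cells -/
theorem exists_off {k : ℕ} {x y : V} (h : dist x y ≤ sc k) :
    ∃ o : Fin 3 → Fin 3, cell k x = fun i => cell k y i + ((o i : ℕ) : ℤ) - 1 := by
  have h2 := sc_mul k
  have h3 : (0 : ℝ) < 2 ^ k := by positivity
  have key : ∀ i, ∃ o : Fin 3, cell k x i = cell k y i + ((o : ℕ) : ℤ) - 1 := by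
    intro i
    have h4 : |x i - y i| ≤ sc k := by
      rw [← Real.dist_eq]; exact (dist_le_pi_dist x y i).trans h
    have h5 : |x i * 2 ^ k - y i * 2 ^ k| ≤ 1 := by
      rw [← sub_mul, abs_mul, abs_of_pos h3, ← h2]
      exact mul_le_mul_of_nonneg_right h4 h3.le
    rw [abs_le] at h5
    have h6 : ((cell k y i : ℤ) : ℝ) ≤ y i * 2 ^ k := Int.floor_le _
    have h7 : y i * 2 ^ k < ((cell k y i : ℤ) : ℝ) + 1 := Int.lt_floor_add_one _
    have h8 : ((cell k x i : ℤ) : ℝ) ≤ x i * 2 ^ k := Int.floor_le _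
    have h9 : x i * 2 ^ k < ((cell k x i : ℤ) : ℝ) + 1 := Int.lt_floor_add_one _
    have h10 : cell k x i - cell k y i < 2 := by
      have : ((cell k x i : ℤ) : ℝ) - (cell k y i : ℤ) < 2 := by linarith
      exact_mod_cast this
    have h11 : -2 < cell k x i - cell k y i := by
      have : (-2 : ℝ) < ((cell k x i : ℤ) : ℝ) - (cell k y i : ℤ) := by linarith
      exact_mod_cast this
    rcases (show cell k x i - cell k y i = -1 ∨ cell k x i - cell k y i = 0 ∨
      cell k x i - cell k y i = 1 by omega) with h | h | h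
    · exact ⟨0, by simp; omega⟩
    · exact ⟨1, by simp; omega⟩
    · exact ⟨2, by simp; omega⟩
  choose o ho using key
  exact ⟨o, funext ho⟩

theorem specCover : H655.SpecCover := by
  classical
  intro s K hs hK
  refine ⟨27 * (ENNReal.ofReal (2 ^ s) * (Measure.hausdorffMeasure s K + 1) + 1),
    ENNReal.mul_ne_top (by norm_num) (ENNReal.add_ne_top.2
      ⟨ENNReal.mul_ne_top ENNReal.ofReal_ne_top (ENNReal.add_ne_top.2 ⟨hK.ne, by norm_num⟩),
        by norm_num⟩), ?_⟩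
  intro N hN hKN
  obtain ⟨η, hη1, hη2⟩ := ENNReal.exists_pos_sum_of_countable (ε := 1) one_ne_zero ℕ
  obtain ⟨ε, hε1, hε2⟩ := ENNReal.exists_pos_sum_of_countable (ε := 1) one_ne_zero (ℕ × ℕ)
  set O : ℕ → Set V := fun m => {x : V | ENNReal.ofReal (sc m) < infEDist x Nᶜ} with hO
  have hOm : ∀ m, MeasurableSet (O m) := fun m =>
    (isOpen_lt continuous_const continuous_infEDist).measurableSet
  set A : ℕ → Set V := disjointed O with hA
  have hAm : ∀ m, MeasurableSet (A m) := fun m => MeasurableSet.disjointed hOm m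
  have hcov0 : K ⊆ ⋃ m, A m := by
    rw [hA, iUnion_disjointed]
    intro x hx
    have h1 : infEDist x Nᶜ ≠ 0 := by
      intro h0
      have := mem_closure_iff_infEDist_zero.2 h0
      rw [hN.isClosed_compl.closure_eq] at this
      exact this (hKN hx)
    have h2 : Tendsto (fun m => ENNReal.ofReal (sc m)) atTop (𝓝 0) := by
      rw [← ENNReal.ofReal_zero]
      exact (ENNReal.continuous_ofReal.tendsto 0).comp
        (tendsto_pow_atTop_nhds_zero_of_lt_one (by norm_num) (by norm_num))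
    obtain ⟨m, hm⟩ := (h2.eventually (gt_mem_nhds (pos_iff_ne_zero.2 h1))).exists
    exact mem_iUnion.2 ⟨m, hm⟩
  have hfin : ∀ m, Measure.hausdorffMeasure s (K ∩ A m) < ⊤ := fun m =>
    (measure_mono inter_subset_left).trans_lt hK
  choose t ht1 ht2 ht3 using fun m => exists_cover_scale s hs (K ∩ A m) (hfin m)
    (ENNReal.ofReal (sc (m + 3))) (η m) (ENNReal.ofReal_pos.2 (sc_pos _))
    (ENNReal.coe_pos.2 (hη1 m))
  have hne : ∀ mn : ℕ × ℕ, ediam (t mn.1 mn.2) ≠ ⊤ := fun mn =>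
    ((ht2 mn.1 mn.2).trans_lt ENNReal.ofReal_lt_top).ne
  have hale : ∀ mn : ℕ × ℕ, (ediam (t mn.1 mn.2)).toReal ≤ sc (mn.1 + 3) := fun mn =>
    ENNReal.toReal_le_of_le_ofReal (sc_pos _).le (ht2 mn.1 mn.2)
  choose k hk1 hk2 hk3 using fun mn : ℕ × ℕ => exists_scale s hs
    (ediam (t mn.1 mn.2)).toReal ENNReal.toReal_nonneg (mn.1 + 3) (hale mn) (ε mn)
    (NNReal.coe_pos.2 (hε1 mn))
  set pt : ℕ × ℕ → V := fun mn =>
    if h : (t mn.1 mn.2 ∩ (K ∩ A mn.1)).Nonempty then h.some else 0 with hpt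
  have hptm : ∀ mn : ℕ × ℕ, (t mn.1 mn.2 ∩ (K ∩ A mn.1)).Nonempty →
      pt mn ∈ t mn.1 mn.2 ∩ (K ∩ A mn.1) := by
    intro mn h
    simp only [hpt, dif_pos h]
    exact h.some_mem
  set idx : (ℕ × ℕ) × (Fin 3 → Fin 3) → ℕ × (Fin 3 → ℤ) := fun j =>
    (k j.1, fun i => cell (k j.1) (pt j.1) i + ((j.2 i : ℕ) : ℤ) - 1) with hidx
  set D : Set (ℕ × (Fin 3 → ℤ)) :=
    {q | ∃ j : (ℕ × ℕ) × (Fin 3 → Fin 3), (t j.1.1 j.1.2 ∩ (K ∩ A j.1.1)).Nonempty ∧ idx j = q}
    with hD
  set Mx : Set (ℕ × (Fin 3 → ℤ)) :=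
    {q | q ∈ D ∧ ∃ x, cell q.1 x = q.2 ∧ ∀ k' < q.1, (k', cell k' x) ∉ D} with hMx
  refine ⟨Mx, inferInstance, fun q => cen q, fun q => sc (q.1.1 + 1), fun q => sc_pos _,
    ?_, ?_, ?_, ?_⟩
  · rintro ⟨q, hqM⟩ w hw
    replace hw : w ∈ cube (cen q) (sc (q.1 + 1)) := hw
    obtain ⟨j, hj, hjq⟩ := hqM.1
    clear hqM
    subst hjq
    obtain ⟨hy1, hy2, hy3⟩ := hptm j.1 hj
    have hyO : pt j.1 ∈ O j.1.1 := disjointed_subset O j.1.1 hy3
    have h1 : dist (pt j.1) w ≤ 2 * sc (k j.1) := by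
      refine dist_le_of_mem (z := (idx j).2) ?_ ?_ hw
      · intro i; simp only [hidx]; omega
      · intro i
        have := (j.2 i).isLt
        simp only [hidx]; omega
    have h2 : sc (k j.1) ≤ sc (j.1.1 + 3) := sc_anti (hk1 j.1)
    have h3 : sc (j.1.1 + 3) = sc j.1.1 / 8 := by unfold sc; ring
    by_contra hwN
    have h4 : ENNReal.ofReal (sc j.1.1) < edist (pt j.1) w :=
      lt_of_lt_of_le hyO (infEDist_le_edist_of_mem hwN)
    rw [edist_dist] at h4
    have h5 := (ENNReal.ofReal_lt_ofReal_iff_of_nonneg (sc_pos _).le).1 h4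
    have := sc_pos j.1.1
    linarith
  · intro x hx
    obtain ⟨m, hm⟩ := mem_iUnion.1 (hcov0 hx)
    obtain ⟨n, hn⟩ := mem_iUnion.1 (ht1 m ⟨hx, hm⟩)
    have hj : (t m n ∩ (K ∩ A m)).Nonempty := ⟨x, hn, hx, hm⟩
    obtain ⟨hy1, hy2, hy3⟩ := hptm (m, n) hj
    have h1 : dist x (pt (m, n)) ≤ sc (k (m, n)) := by
      refine le_trans ?_ (hk2 (m, n))
      have h2 : edist x (pt (m, n)) ≤ ediam (t m n) := edist_le_ediam_of_mem hn hy1
      rw [dist_edist]
      exact ENNReal.toReal_mono (hne (m, n)) h2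
    obtain ⟨o, ho⟩ := exists_off h1
    have hex : ∃ k', (k', cell k' x) ∈ D :=
      ⟨k (m, n), ⟨((m, n), o), hj, by simp only [hidx]; rw [ho]⟩⟩
    have hmem : (Nat.find hex, cell (Nat.find hex) x) ∈ Mx :=
      ⟨Nat.find_spec hex, x, rfl, fun k' hk' => Nat.find_min hex hk'⟩
    exact mem_iUnion.2 ⟨⟨_, hmem⟩, mem_cube_cell _ x⟩
  · rintro ⟨q, hq, x, hx, hx2⟩ ⟨q', hq', x', hx', hx2'⟩ hqq
    refine inter_null fun y hy hy' => ?_
    rcases lt_trichotomy q.1 q'.1 with h | h | h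
    · refine hx2' q.1 h ?_
      have h1 : cell q.1 x' = q.2 := by
        rw [← hy]; exact cell_le h.le (hx'.trans hy'.symm)
      rw [h1]; exact hq
    · apply hqq
      have h1 : q.2 = q'.2 := by rw [← hy, ← hy', h]
      exact Subtype.ext (Prod.ext h h1)
    · refine hx2 q'.1 h ?_
      have h1 : cell q'.1 x = q'.2 := by
        rw [← hy']; exact cell_le h.le (hx.trans hy.symm)
      rw [h1]; exact hq'
  · have hch : ∀ q : Mx, ∃ j, idx j = q.1 := fun q => by
      obtain ⟨j, -, hj⟩ := q.2.1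
      exact ⟨j, hj⟩
    choose g hg using hch
    have hginj : Function.Injective g := fun a b hab => Subtype.ext (by rw [← hg a, ← hg b, hab])
    set W : (ℕ × ℕ) × (Fin 3 → Fin 3) → ℝ≥0∞ := fun j =>
      ENNReal.ofReal (sc ((idx j).1 + 1) ^ s) with hW
    calc ∑' q : Mx, ENNReal.ofReal (sc (q.1.1 + 1) ^ s)
        = ∑' q : Mx, W (g q) := by
          refine tsum_congr fun q => ?_
          simp only [hW]
          rw [hg q]
      _ ≤ ∑' j, W j := ENNReal.tsum_comp_le_tsum_of_injective hginj W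
      _ ≤ ∑' j : (ℕ × ℕ) × (Fin 3 → Fin 3), (ENNReal.ofReal (2 ^ s) *
            ediam (t j.1.1 j.1.2) ^ s + ε j.1) := by
          refine ENNReal.tsum_le_tsum fun j => ?_
          have h1 : sc ((idx j).1 + 1) ^ s ≤ sc (k j.1) ^ s :=
            Real.rpow_le_rpow (sc_pos _).le (sc_anti (by simp [hidx])) hs.le
          have h2 := h1.trans (hk3 j.1)
          refine (ENNReal.ofReal_le_ofReal h2).trans ?_
          rw [ENNReal.ofReal_add (by positivity) (by positivity),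
            Real.mul_rpow (by norm_num) ENNReal.toReal_nonneg,
            ENNReal.ofReal_mul (by positivity),
            ← ENNReal.ofReal_rpow_of_nonneg ENNReal.toReal_nonneg hs.le,
            ENNReal.ofReal_toReal (hne j.1), ENNReal.ofReal_coe_nnreal]
      _ = ∑' mn : ℕ × ℕ, 27 * (ENNReal.ofReal (2 ^ s) * ediam (t mn.1 mn.2) ^ s + ε mn) := by
          rw [ENNReal.tsum_prod (f := fun (mn : ℕ × ℕ) (_ : Fin 3 → Fin 3) =>
            ENNReal.ofReal (2 ^ s) * ediam (t mn.1 mn.2) ^ s + ε mn)]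
          refine tsum_congr fun mn => ?_
          rw [tsum_fintype, Finset.sum_const, Finset.card_univ, nsmul_eq_mul]
          congr 1
      _ = 27 * (ENNReal.ofReal (2 ^ s) * (∑' m, ∑' n, ediam (t m n) ^ s) + ∑' mn, (ε mn : ℝ≥0∞)) := by
          rw [ENNReal.tsum_mul_left, ENNReal.tsum_add, ENNReal.tsum_mul_left,
            ENNReal.tsum_prod (f := fun m n => ediam (t m n) ^ s)]
      _ ≤ 27 * (ENNReal.ofReal (2 ^ s) * (Measure.hausdorffMeasure s K + 1) + 1) := by
          gcongr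
          refine (ENNReal.tsum_le_tsum ht3).trans ?_
          rw [ENNReal.tsum_add]
          refine add_le_add ?_ hη2.le
          have h1 : ∀ m, Measure.hausdorffMeasure s (K ∩ A m) =
              (Measure.hausdorffMeasure s).restrict K (A m) := fun m => by
            rw [Measure.restrict_apply (hAm m), inter_comm]
          simp only [h1]
          rw [← measure_iUnion (disjoint_disjointed O) hAm]
          refine (measure_mono (subset_univ _)).trans ?_
          rw [Measure.restrict_apply_univ]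

end Vale.Agent.P073.H694
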