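import Vale.Agent.P073.H880.Rows
import Vale.Agent.P073.ConGlue

/-!
# P073, row C: filling cubes by conical homeomorphisms (over Alexander's theorem)
-/

open Set Metric Topology Filter

namespace Vale.Agent.P073.H694

open _root_.P073
open Vale.Agent.P073.St (V)
open Vale.Agent.P073.SQ (cube)
open Vale.Agent.P073.H880 (Boxes)

theorem cube_eq (c : V) {ρ : ℝ} (hρ : 0 < ρ) : cube c ρ = closedBall c ρ := by
  ext x
  rw [mem_closedBall, dist_pi_le_iff hρ.le]
  exact Iff.rfl

theorem mem_ball_iff' (c : V) {ρ : ℝ} (hρ : 0 < ρ) (x : V) :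
    x ∈ ball c ρ ↔ ∀ l, |x l - c l| < ρ := by
  rw [mem_ball, dist_pi_lt_iff hρ]
  exact Iff.rfl

/-- a bounded open set disjoint from the unit sphere and closed up by the sphere is the ball -/
theorem eq_ball {U : Set V} (hU : IsOpen U) (hne : U.Nonempty) (hb : Bornology.IsBounded U)
    (hd : Disjoint U (sphere 0 1)) (hcl : IsClosed (U ∪ sphere 0 1)) : U = ball 0 1 := by
  have key : ∀ A : Set V, IsPreconnected A → Disjoint A (sphere 0 1) → (A ∩ U).Nonempty →
      A ⊆ U := by
    intro A hA hAd hAU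
    refine hA.subset_left_of_subset_union hU hcl.isOpen_compl ?_ ?_ hAU
    · rw [Set.disjoint_left]
      exact fun x hx hx' => hx' (Or.inl hx)
    · intro x hx
      by_cases hxU : x ∈ U
      · exact Or.inl hxU
      · refine Or.inr ?_
        rintro (h | h)
        · exact hxU h
        · exact Set.disjoint_left.1 hAd hx h
  have hsub : U ⊆ ball 0 1 := by
    intro x hx
    rw [mem_ball_zero_iff]
    by_contra hlt
    have h1 : 1 < ‖x‖ := by
      refine lt_of_le_of_ne (not_lt.1 hlt) ?_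
      intro h
      exact Set.disjoint_left.1 hd hx (mem_sphere_zero_iff_norm.2 h.symm)
    have hA : IsPreconnected ((fun t : ℝ => t • x) '' Ici 1) :=
      isPreconnected_Ici.image _ (by fun_prop)
    have hn : ∀ t : ℝ, 1 ≤ t → ‖t • x‖ = t * ‖x‖ := fun t ht => by
      rw [norm_smul, Real.norm_of_nonneg (by linarith)]
    have hAs := key _ hA (by
      rw [Set.disjoint_left]
      rintro _ ⟨t, ht, rfl⟩ h
      rw [mem_sphere_zero_iff_norm, hn t ht] at h
      have ht' : (1:ℝ) ≤ t := ht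
      nlinarith) ⟨x, ⟨1, self_mem_Ici, one_smul _ _⟩, hx⟩
    obtain ⟨R, hR⟩ := hb.exists_norm_le
    have h2 := hR _ (hAs ⟨max 1 (R + 1), mem_Ici.2 (le_max_left _ _), rfl⟩)
    simp only at h2
    rw [hn _ (le_max_left _ _)] at h2
    have h3 := le_max_right 1 (R + 1)
    have h4 := le_max_left 1 (R + 1)
    nlinarith
  refine Subset.antisymm hsub ?_
  refine key _ (convex_ball _ _).isPreconnected ?_ ?_
  · exact sphere_disjoint_ball.symm
  · obtain ⟨x, hx⟩ := hne
    exact ⟨x, hsub hx, hx⟩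

/-- the standard parametrisation of a cube -/
noncomputable def scal (c : V) {ρ : ℝ} (hρ : 0 < ρ) :
    ConHomeo (closedBall c ρ) (closedBall (0 : V) 1) where
  toFun := fun x => ρ⁻¹ • (x - c)
  invFun := fun y => c + ρ • y
  mapsTo := fun x hx => by
    rw [mem_closedBall_zero_iff, norm_smul, norm_inv, Real.norm_of_nonneg hρ.le,
      inv_mul_le_iff₀ hρ, mul_one, ← dist_eq_norm]
    exact hx
  mapsTo_inv := fun y hy => by
    rw [mem_closedBall_zero_iff] at hy
    rw [mem_closedBall, dist_eq_norm, add_sub_cancel_left, norm_smul, Real.norm_of_nonneg hρ.le]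
    nlinarith
  left_inv := fun x _ => by
    show c + ρ • (ρ⁻¹ • (x - c)) = x
    rw [smul_smul, mul_inv_cancel₀ hρ.ne', one_smul, add_sub_cancel]
  right_inv := fun y _ => by
    show ρ⁻¹ • ((c + ρ • y) - c) = y
    rw [add_sub_cancel_left, smul_smul, inv_mul_cancel₀ hρ.ne', one_smul]
  cont := by fun_prop
  cont_inv := by fun_prop
  conical := by
    have hC : ConicalSet (closedBall c ρ) := Convex.conicalSet (convex_closedBall c ρ)
    exact ((conicalOn_id hC).sub (conicalOn_const c hC)).const_smul ρ⁻¹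

theorem conBall_closedBall (c : V) {ρ : ℝ} (hρ : 0 < ρ) :
    ConBall 3 (closedBall c ρ) (sphere c ρ) := by
  refine ⟨sphere_subset_closedBall, scal c hρ, ?_⟩
  ext y
  constructor
  · rintro ⟨x, hx, rfl⟩
    show ρ⁻¹ • (x - c) ∈ sphere 0 1
    rw [mem_sphere_zero_iff_norm, norm_smul, norm_inv, Real.norm_of_nonneg hρ.le,
      ← dist_eq_norm, mem_sphere.1 hx, inv_mul_cancel₀ hρ.ne']
  · intro hy
    refine ⟨c + ρ • y, ?_, ?_⟩
    · rw [mem_sphere, dist_eq_norm, add_sub_cancel_left, norm_smul, Real.norm_of_nonneg hρ.le,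
        mem_sphere_zero_iff_norm.1 hy, mul_one]
    · show ρ⁻¹ • ((c + ρ • y) - c) = y
      rw [add_sub_cancel_left, smul_smul, inv_mul_cancel₀ hρ.ne', one_smul]

/-- Alexander's theorem, as a hypothesis -/
def Alex : Prop := ∀ S : Set V, ConSphere 2 S →
  ∃ Φ : ConHomeo (univ : Set V) (univ : Set V), Φ.toFun '' S = sphere 0 1

section
variable {Ω Λ : Set V} {g h : V → V}

theorem image_open (hΛ : IsOpen Λ) (hinv : St.IsInv Ω Λ g h) (hh : ContinuousOn h Λ) {O : Set V}
    (hO : IsOpen O) (hOΩ : O ⊆ Ω) : IsOpen (g '' O) := by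
  have : g '' O = Λ ∩ h ⁻¹' O := by
    ext y
    constructor
    · rintro ⟨x, hx, rfl⟩
      refine ⟨(hinv.1 x (hOΩ hx)).1, ?_⟩
      show h (g x) ∈ O
      rw [(hinv.1 x (hOΩ hx)).2]; exact hx
    · rintro ⟨hy, hyO⟩
      exact ⟨h y, hyO, (hinv.2 y hy).2⟩
  rw [this]
  exact hh.isOpen_inter_preimage hΛ hO

theorem injOn_of (hinv : St.IsInv Ω Λ g h) : InjOn g Ω := fun x hx y hy hxy => by
  rw [← (hinv.1 x hx).2, hxy, (hinv.1 y hy).2]

theorem toHomeo_isOpen (Φ : ConHomeo (univ : Set V) (univ : Set V)) {U : Set V} (hU : IsOpen U) :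
    IsOpen (Φ.toFun '' U) := by
  have : Φ.toFun '' U = Φ.invFun ⁻¹' U := by
    ext y
    constructor
    · rintro ⟨x, hx, rfl⟩
      show Φ.invFun (Φ.toFun x) ∈ U
      rw [Φ.left_inv (mem_univ x)]; exact hx
    · intro hy
      exact ⟨Φ.invFun y, hy, Φ.right_inv (mem_univ y)⟩
  rw [this]
  exact hU.preimage (continuousOn_univ.1 Φ.cont_inv)

/-- **the image of one cube is a conical ball** -/
theorem conBall_image (hA : Alex) (hΛ : IsOpen Λ) (hinv : St.IsInv Ω Λ g h)
    (hg : ContinuousOn g Ω) (hh : ContinuousOn h Λ) {c : V} {ρ : ℝ} (hρ : 0 < ρ)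
    (hsub : closedBall c ρ ⊆ Ω) (hcon : ∀ x ∈ sphere c ρ, ConicalWithinAt g Ω x) :
    ConBall 3 (g '' closedBall c ρ) (g '' sphere c ρ) := by
  have hinj : InjOn g Ω := injOn_of hinv
  have hSs : sphere c ρ ⊆ Ω := sphere_subset_closedBall.trans hsub
  have hB := conBall_closedBall c hρ
  -- the image of the sphere is a conical sphere
  have hS : ConSphere 2 (g '' sphere c ρ) := by
    have hc : ConicalOn g (sphere c ρ) := fun x hx =>
      (hcon x hx).mono_set (hB.conicalSet_bdry x hx) hSs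
    obtain ⟨ψ⟩ := hB.conSphere
    exact ⟨(ConHomeo.ofCompact (isCompact_sphere _ _) g (hg.mono hSs) (hinj.mono hSs) hc
      rfl).symm.trans ψ⟩
  obtain ⟨Φ, hΦ⟩ := hA _ hS
  have hΦi : InjOn Φ.toFun univ := Φ.injOn
  have hΦc : Continuous Φ.toFun := continuousOn_univ.1 Φ.cont
  have hopen : IsOpen (Φ.toFun '' (g '' ball c ρ)) :=
    toHomeo_isOpen Φ (image_open hΛ hinv hh isOpen_ball (ball_subset_closedBall.trans hsub))
  have hU : Φ.toFun '' (g '' closedBall c ρ) = Φ.toFun '' (g '' ball c ρ) ∪ sphere 0 1 := by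
    rw [← ball_union_sphere, image_union, image_union, hΦ]
  have hcomp : IsCompact (Φ.toFun '' (g '' closedBall c ρ)) :=
    ((isCompact_closedBall c ρ).image_of_continuousOn (hg.mono hsub)).image hΦc
  have hball : Φ.toFun '' (g '' ball c ρ) = ball 0 1 := by
    refine eq_ball hopen ?_ ?_ ?_ ?_
    · exact ((nonempty_ball.2 hρ).image _).image _
    · refine hcomp.isBounded.subset ?_
      rw [hU]; exact subset_union_left
    · rw [← hΦ, Set.disjoint_left]
      rintro _ ⟨_, ⟨x, hx, rfl⟩, rfl⟩ ⟨_, ⟨x', hx', rfl⟩, he⟩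
      have h1 : g x' = g x := hΦi (mem_univ _) (mem_univ _) he
      have h2 : x' = x := hinj (hSs hx') ((ball_subset_closedBall.trans hsub) hx) h1
      rw [h2] at hx'
      exact Set.disjoint_left.1 sphere_disjoint_ball hx' hx
    · rw [← hU]; exact hcomp.isClosed
  have hcb : Φ.toFun '' (g '' closedBall c ρ) = closedBall 0 1 := by
    rw [hU, hball, ball_union_sphere]
  -- the chart
  have hpre : Φ.invFun '' closedBall 0 1 = g '' closedBall c ρ := by
    rw [← hcb, image_image]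
    have : ∀ x ∈ g '' closedBall c ρ, Φ.invFun (Φ.toFun x) = x := fun x _ =>
      Φ.left_inv (mem_univ x)
    rw [image_congr this, image_id']
  have hconS : ConicalSet (g '' closedBall c ρ) := by
    rw [← hpre]
    exact Φ.symm.conicalSet_image (Convex.conicalSet (convex_closedBall _ _)) (subset_univ _)
  exact ⟨image_mono sphere_subset_closedBall, (Φ.restr hconS (subset_univ _)).cast rfl hcb, hΦ⟩

end

/-- **Row C** over Alexander's theorem -/
theorem specFill_of (hA : Alex) : H880.SpecFill := by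
  classical
  intro Ω Λ K g W hΩ hΛ hKΩ hK hhom hcon
  obtain ⟨h, hinv, hg, hh⟩ := hhom
  have hinj : InjOn g Ω := injOn_of hinv
  have himΩ : g '' Ω = Λ := by
    ext y
    constructor
    · rintro ⟨x, hx, rfl⟩; exact (hinv.1 x hx).1
    · intro hy; exact ⟨h y, (hinv.2 y hy).1, (hinv.2 y hy).2⟩
  -- balls
  set O : W.ι → Set V := fun i => ball (W.c i) (W.ρ i) with hOdef
  set C : W.ι → Set V := fun i => closedBall (W.c i) (W.ρ i) with hCdef
  set B : W.ι → Set V := fun i => sphere (W.c i) (W.ρ i) with hBdef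
  have hCcube : ∀ i, cube (W.c i) (W.ρ i) = C i := fun i => cube_eq _ (W.pos i)
  have hCΩ : ∀ i, C i ⊆ Ω := fun i => hCcube i ▸ W.sub i
  have hOC : ∀ i, O i ⊆ C i := fun i => ball_subset_closedBall
  have hBC : ∀ i, B i ⊆ C i := fun i => sphere_subset_closedBall
  have hOopen : IsOpen (⋃ i, O i) := isOpen_iUnion fun i => isOpen_ball
  have hdisj : ∀ i j, i ≠ j → ∀ x ∈ O i, x ∉ C j := by
    intro i j hij x hx hx'
    refine W.disj i j hij x ((mem_ball_iff' _ (W.pos i) x).1 hx) ?_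
    rw [← hCcube j] at hx'
    exact hx'
  have hcover : K ⊆ ⋃ i, O i := by
    intro x hx
    obtain ⟨i, hi⟩ := W.cover x hx
    exact mem_iUnion.2 ⟨i, (mem_ball_iff' _ (W.pos i) x).2 hi⟩
  have hfin : ∀ x ∈ Ω, ∃ N ∈ 𝓝 x, {i | (C i ∩ N).Nonempty}.Finite := by
    intro x hx
    obtain ⟨N, hN, hf⟩ := W.fin x hx
    refine ⟨N, hN, ?_⟩
    simpa only [hCcube] using hf
  set X : Set V := Ω \ ⋃ i, O i with hXdef
  have hXΩ : X ⊆ Ω := sdiff_subset
  have hXK : ∀ x ∈ X, x ∈ Ω \ K := fun x hx => ⟨hx.1, fun hxK => hx.2 (hcover hxK)⟩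
  -- `X` is conical
  have hXcon : ConicalSet X := by
    intro x hx
    obtain ⟨N, hN, hf⟩ := hfin x hx.1
    have hf' : Finite {i | (C i ∩ N).Nonempty} := hf
    have h1 : LocConeAt (⋃ i : {i | (C i ∩ N).Nonempty}, O i) x := by
      refine LocConeAt.iUnion_finite fun i => ?_
      have h2 : O i = interior (closedBall (W.c i) (W.ρ i)) :=
        (interior_closedBall _ (W.pos i).ne').symm
      rw [h2]
      refine LocConeAt.interior ?_
      have h3 : closedBall (W.c i) (W.ρ i) =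
          Icc (fun l => W.c i l - W.ρ i) (fun l => W.c i l + W.ρ i) := by
        rw [closedBall_pi _ (W.pos i).le]
        ext y
        simp only [Set.mem_pi, mem_univ, true_imp_iff, Real.closedBall_eq_Icc, mem_Icc, Pi.le_def]
        exact forall_and
      rw [h3]
      exact locCone_Icc_pi _ _ x
    have h4 : LocConeAt (⋃ i, O i) x := by
      refine (locConeAt_congr ?_).1 h1
      filter_upwards [hN] with y hy
      constructor
      · intro hh
        obtain ⟨i, hi⟩ := mem_iUnion.1 hh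
        exact mem_iUnion.2 ⟨i, hi⟩
      · intro hh
        obtain ⟨i, hi⟩ := mem_iUnion.1 hh
        exact mem_iUnion.2 ⟨⟨i, ⟨y, hOC i hi, hy⟩⟩, hi⟩
    have h5 : LocConeAt X x := by
      rw [hXdef, sdiff_eq]
      exact (locConeAt_of_mem_nhds (hΩ.mem_nhds hx.1)).inter h4.compl
    exact h5.conicalSetAt hx
  have hgX : ConicalOn g X := fun x hx => (hcon x (hXK x hx)).mono_set (hXcon x hx) hXΩ
  -- the homeomorphism of the complement of the cubes
  let φ : ConHomeo X (g '' X) :=
    { toFun := g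
      invFun := h
      mapsTo := mapsTo_image _ _
      mapsTo_inv := by
        rintro _ ⟨x, hx, rfl⟩
        rw [(hinv.1 x (hXΩ hx)).2]; exact hx
      left_inv := fun x hx => (hinv.1 x (hXΩ hx)).2
      right_inv := by
        rintro _ ⟨x, hx, rfl⟩
        rw [(hinv.1 x (hXΩ hx)).2]
      cont := hg.mono hXΩ
      cont_inv := hh.mono (by rw [← himΩ]; exact image_mono hXΩ)
      conical := hgX }
  have hBX : ∀ i, B i ⊆ X := by
    intro i x hx
    refine ⟨hCΩ i (hBC i hx), ?_⟩
    intro hxO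
    obtain ⟨j, hj⟩ := mem_iUnion.1 hxO
    by_cases hij : j = i
    · subst hij
      exact Set.disjoint_left.1 sphere_disjoint_ball hx hj
    · exact hdisj j i hij x hj (hBC i hx)
  have hCX : ∀ i, C i ∩ X = B i := by
    intro i
    ext x
    constructor
    · rintro ⟨hxC, hxX⟩
      have h1 : x ∉ ball (W.c i) (W.ρ i) := fun hx => hxX.2 (mem_iUnion.2 ⟨i, hx⟩)
      have h2 : x ∈ closedBall (W.c i) (W.ρ i) := hxC
      rw [← ball_union_sphere] at h2
      exact h2.resolve_left h1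
    · intro hx
      exact ⟨hBC i hx, hBX i hx⟩
  have hCC : ∀ i j, i ≠ j → C i ∩ C j ⊆ X := by
    rintro i j hij x ⟨hi, hj⟩
    refine ⟨hCΩ i hi, ?_⟩
    intro hxO
    obtain ⟨k, hk⟩ := mem_iUnion.1 hxO
    by_cases hki : k = i
    · subst hki
      exact hdisj k j hij x hk hj
    · exact hdisj k i hki x hk hi
  have hUX : X ∪ ⋃ i, C i = Ω := by
    ext x
    constructor
    · rintro (hx | hx)
      · exact hXΩ hx
      · obtain ⟨i, hi⟩ := mem_iUnion.1 hx
        exact hCΩ i hi
    · intro hx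
      by_cases hxO : x ∈ ⋃ i, O i
      · obtain ⟨i, hi⟩ := mem_iUnion.1 hxO
        exact Or.inr (mem_iUnion.2 ⟨i, hOC i hi⟩)
      · exact Or.inl ⟨hx, hxO⟩
  have hUY : g '' X ∪ ⋃ i, g '' C i = Λ := by
    rw [← image_iUnion, ← image_union, hUX, himΩ]
  have himg : ∀ {A A' : Set V}, A ⊆ Ω → A' ⊆ Ω → g '' A ∩ g '' A' = g '' (A ∩ A') := by
    intro A A' hA' hA''
    exact ((hinj.mono (union_subset hA' hA'')).image_inter subset_union_left
      subset_union_right).symm
  obtain ⟨Ψ, hΨ, -⟩ := φ.exists_extend_cells (fun _ => 3) C B (fun i => g '' C i)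
    (fun i => g '' B i) (fun i => conBall_closedBall _ (W.pos i))
    (fun i => conBall_image hA hΛ hinv hg hh (W.pos i) (hCΩ i)
      (fun x hx => hcon x (hXK x (hBX i hx))))
    (fun i => rfl) hCX
    (fun i => by rw [himg (hCΩ i) hXΩ, hCX i]) hCC
    (fun i j hij => by
      rw [himg (hCΩ i) (hCΩ j)]
      exact image_mono (hCC i j hij))
    (by
      intro z hz hzc
      rw [hUX] at hz
      refine ⟨hz, ?_⟩
      intro hzO
      obtain ⟨y, hy1, hy2⟩ := mem_closure_iff.1 hzc _ hOopen hzO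
      exact hy2.2 hy1)
    (by
      intro z hz hzc
      rw [hUY] at hz
      have hz' : z ∈ g '' Ω := by rw [himΩ]; exact hz
      obtain ⟨x, hx, rfl⟩ := hz'
      refine ⟨x, ⟨hx, ?_⟩, rfl⟩
      intro hxO
      obtain ⟨i, hi⟩ := mem_iUnion.1 hxO
      have ho : IsOpen (g '' O i) :=
        image_open hΛ hinv hh isOpen_ball ((hOC i).trans (hCΩ i))
      obtain ⟨y, hy1, hy2⟩ := mem_closure_iff.1 hzc _ ho (mem_image_of_mem g hi)
      obtain ⟨a, ha, rfl⟩ := hy1
      obtain ⟨b, hb, hab⟩ := hy2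
      have : b = a := hinj (hXΩ hb) (hCΩ i (hOC i ha)) hab
      subst this
      exact hb.2 (mem_iUnion.2 ⟨i, ha⟩))
    (by
      intro z hz
      rw [hUX] at hz
      exact hfin z hz)
    (by
      intro z hz
      rw [hUY] at hz
      have hz' : z ∈ g '' Ω := by rw [himΩ]; exact hz
      obtain ⟨x, hx, rfl⟩ := hz'
      obtain ⟨N, hN, hf⟩ := hfin x hx
      have ho : IsOpen (g '' (interior N ∩ Ω)) :=
        image_open hΛ hinv hh (isOpen_interior.inter hΩ) inter_subset_right
      refine ⟨g '' (interior N ∩ Ω), ho.mem_nhds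
        (mem_image_of_mem g ⟨mem_interior_iff_mem_nhds.2 hN, hx⟩), hf.subset ?_⟩
      rintro i ⟨_, ⟨a, ha, rfl⟩, ⟨b, hb, hab⟩⟩
      have : b = a := hinj hb.2 (hCΩ i ha) hab
      subst this
      exact ⟨b, ha, interior_subset hb.1⟩)
  refine ⟨Ψ.cast hUX hUY, ?_⟩
  intro x hx hxO
  show Ψ.toFun x = g x
  refine hΨ ⟨hx, ?_⟩
  intro hmem
  obtain ⟨i, hi⟩ := mem_iUnion.1 hmem
  exact hxO i ((mem_ball_iff' _ (W.pos i) x).1 hi)

end Vale.Agent.P073.H694
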