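import Vale.Agent.P073.H694.GlueC
import Vale.Agent.P073.H694.TowerDefs
import Vale.Agent.P073.H694.Conn
import Vale.Agent.P073.H655.Tame4
import Vale.Agent.P073.RT.H655.Step
import Vale.Agent.P073.RT.H739.Tiling2
import Vale.Agent.P073.RT.H694.Star
import Vale.Agent.P073.RED.Basic933

/-!
# P073, filtrations: fine approximation step by step
-/

namespace Vale.Agent.P073.H694

open MeasureTheory Set Filter Topology Metric Vale.Agent.P073.St Vale.Agent.P073.AB
open Vale.Agent.P073.SQ (ev)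
open Vale.Agent.P073.H655
open Vale.Agent.P073.H880 (LocPA NullProj RegularOn)
open Vale.Agent.P073.H655.V4 (Reg Small)
open scoped ContDiff ENNReal

variable {p : ℝ} {Ω Λ B : Set V}

/-- the fine form of theorem (T) -/
def FineT : Prop :=
  ∀ (p : ℝ) (Ω Λ K : Set V) (f : V → V) (F : V → Mat), 1 ≤ p → St.IsBoundedDomain Ω →
    St.IsBoundedDomain Λ → K ⊆ Ω → IsOpen (Ω \ K) → St.IsHomeo Ω Λ f → St.IsSobolev p Ω f F →
    FineOff Ω Λ K f F → NullProj (f '' K) → FA p Ω Λ f F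

/-- maps with fine approximations in the sense of `FineV` -/
theorem fa_of_fineV (hp : 1 ≤ p) (hΩ : St.IsBoundedDomain Ω) {f : V → V} {F : V → Mat}
    (hf : St.IsHomeo Ω Λ f) (hF : St.IsSobolev p Ω f F) (hV : FineV Ω Λ f) : FA p Ω Λ f F := by
  obtain ⟨D, C, hDm, hC, hC0, hDC, happ⟩ := hV
  have hp0 : 0 < p := by linarith
  have hev : ∀ j, ‖ev j‖ = 1 := fun j => by unfold ev; rw [Pi.norm_single]; simp
  have hv := PK.volume_ne_top_of_domain hΩ
  have hfc : ContinuousOn f Ω := hf.choose_spec.2.1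
  have hDF : ∀ᵐ x ∂(volume : Measure V), x ∈ Ω → cl (F x) = D x := by
    have h1 := D_eq hp hv hF hΩ.1 Subset.rfl hfc hDm hC hDC (fun n => by
      obtain ⟨g, hg, hgf, -, hgD⟩ := happ (fun _ => n) continuousOn_const
      exact ⟨g, (diffeo_smooth hg).of_le (by simp), hgf, hgD⟩)
    filter_upwards [h1] with x hx hxU
    exact clm_ext (hx hxU)
  intro σ hσ hσ0 ε hε
  obtain ⟨κ, hκ, hκε⟩ : ∃ κ : ℝ, 0 < κ ∧
      ENNReal.ofReal (κ ^ p) * volume Ω + 3 * ENNReal.ofReal κ ≤ ENNReal.ofReal ε := by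
    have t0 : Tendsto (fun n : ℕ => 1 / ((n : ℝ) + 1)) atTop (𝓝 0) :=
      tendsto_one_div_add_atTop_nhds_zero_nat
    have t1 : Tendsto (fun n : ℕ => ENNReal.ofReal (1 / ((n : ℝ) + 1))) atTop (𝓝 0) := by
      simpa using ENNReal.tendsto_ofReal t0
    have t2 : Tendsto (fun n : ℕ => ENNReal.ofReal ((1 / ((n : ℝ) + 1)) ^ p)) atTop (𝓝 0) := by
      have h2 : Tendsto (fun n : ℕ => (1 / ((n : ℝ) + 1)) ^ p) atTop (𝓝 (0 ^ p)) :=
        t0.rpow_const (Or.inr hp0.le)
      rw [Real.zero_rpow hp0.ne'] at h2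
      simpa using ENNReal.tendsto_ofReal h2
    have t3 := ENNReal.Tendsto.mul_const (b := volume Ω) t2 (Or.inr hv)
    rw [zero_mul] at t3
    have t4 := ENNReal.Tendsto.const_mul (a := 3) t1 (Or.inr (by norm_num))
    rw [mul_zero] at t4
    have t5 := t3.add t4
    rw [add_zero] at t5
    obtain ⟨n, hn⟩ := (t5.eventually (gt_mem_nhds (ENNReal.ofReal_pos.2 hε))).exists
    exact ⟨1 / ((n : ℝ) + 1), by positivity, hn.le⟩
  set w : V → ℝ := fun x => (σ x)⁻¹ + κ⁻¹ + (2 * C x) ^ (p - 1) * κ⁻¹ with hw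
  have hwc : ContinuousOn w Ω := by
    refine ((hσ.inv₀ fun x hx => (hσ0 x hx).ne').add continuousOn_const).add
      (ContinuousOn.mul ?_ continuousOn_const)
    exact (continuousOn_const.mul hC).rpow_const fun x _ => Or.inr (by linarith)
  obtain ⟨g, hg, hgf, hgC, hgD⟩ := happ w hwc
  have hwb : ∀ x ∈ Ω, 0 ≤ (σ x)⁻¹ ∧ 0 ≤ κ⁻¹ ∧ 0 ≤ (2 * C x) ^ (p - 1) * κ⁻¹ := fun x hx =>
    ⟨inv_nonneg.2 (hσ0 x hx).le, by positivity,
      mul_nonneg (Real.rpow_nonneg (mul_nonneg zero_le_two (hC0 x hx).le) _) (by positivity)⟩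
  have hb1 : ∀ x ∈ Ω, ‖g x - f x‖ ≤ σ x := by
    intro x hx
    obtain ⟨b1, b3, b4⟩ := hwb x hx
    have h1 : ‖g x - f x‖ * (σ x)⁻¹ ≤ 1 :=
      (mul_le_mul_of_nonneg_left (by rw [hw]; dsimp only; linarith) (norm_nonneg _)).trans (hgf x hx)
    rwa [mul_inv_le_iff₀ (hσ0 x hx), one_mul] at h1
  have hb3 : ∀ x ∈ Ω, ‖g x - f x‖ ≤ κ := by
    intro x hx
    obtain ⟨b1, b3, b4⟩ := hwb x hx
    have h1 : ‖g x - f x‖ * κ⁻¹ ≤ 1 :=
      (mul_le_mul_of_nonneg_left (by rw [hw]; dsimp only; linarith) (norm_nonneg _)).trans (hgf x hx)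
    rwa [mul_inv_le_iff₀ hκ, one_mul] at h1
  have hE : ∫⁻ x in Ω, ENNReal.ofReal (‖fderiv ℝ g x - cl (F x)‖ ^ p) ≤
      ENNReal.ofReal κ := by
    calc ∫⁻ x in Ω, ENNReal.ofReal (‖fderiv ℝ g x - cl (F x)‖ ^ p)
        ≤ ∫⁻ x in Ω, ENNReal.ofReal κ * ENNReal.ofReal (w x * ‖fderiv ℝ g x - D x‖) := by
          refine lintegral_mono_ae ((ae_restrict_iff' hΩ.1.measurableSet).2 ?_)
          filter_upwards [hDF] with x hx hxU
          rw [hx hxU, ← ENNReal.ofReal_mul hκ.le]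
          apply ENNReal.ofReal_le_ofReal
          obtain ⟨b1, b3, b4⟩ := hwb x hxU
          set t := ‖fderiv ℝ g x - D x‖ with ht
          have ht0 : 0 ≤ t := norm_nonneg _
          have ht2 : t ≤ 2 * C x := by
            refine (norm_sub_le _ _).trans ?_
            linarith [hgC x hxU, hDC x hxU]
          have h1 : t ^ p ≤ (2 * C x) ^ (p - 1) * t := by
            rcases ht0.eq_or_lt with h0 | h0
            · rw [← h0, Real.zero_rpow hp0.ne', mul_zero]
            · have : t ^ p = t ^ (p - 1) * t := by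
                rw [← Real.rpow_add_one h0.ne']; congr 1; ring
              rw [this]
              exact mul_le_mul_of_nonneg_right
                (Real.rpow_le_rpow ht0 ht2 (by linarith)) ht0
          have h2 : (2 * C x) ^ (p - 1) ≤ κ * w x := by
            have h3 : κ * ((2 * C x) ^ (p - 1) * κ⁻¹) = (2 * C x) ^ (p - 1) := by
              field_simp
            rw [← h3]
            apply mul_le_mul_of_nonneg_left _ hκ.le
            rw [hw]; dsimp only; linarith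
          calc t ^ p ≤ (2 * C x) ^ (p - 1) * t := h1
            _ ≤ (κ * w x) * t := mul_le_mul_of_nonneg_right h2 ht0
            _ = κ * (w x * t) := by ring
      _ = ENNReal.ofReal κ * ∫⁻ x in Ω, ENNReal.ofReal (w x * ‖fderiv ℝ g x - D x‖) :=
          lintegral_const_mul' _ _ ENNReal.ofReal_ne_top
      _ ≤ ENNReal.ofReal κ * 1 := mul_le_mul_right hgD _
      _ = _ := mul_one _
  refine ⟨g, hg, hb1, le_trans ?_ hκε⟩
  unfold err
  refine add_le_add ?_ ?_
  · calc ∫⁻ x in Ω, ENNReal.ofReal (‖g x - f x‖ ^ p)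
        ≤ ∫⁻ _x in Ω, ENNReal.ofReal (κ ^ p) := by
          refine setLIntegral_mono' hΩ.1.measurableSet fun x hx => ?_
          exact ENNReal.ofReal_le_ofReal (Real.rpow_le_rpow (norm_nonneg _) (hb3 x hx) hp0.le)
      _ = ENNReal.ofReal (κ ^ p) * volume Ω := setLIntegral_const _ _
  · calc ∑ j, ∫⁻ x in Ω, ENNReal.ofReal (‖fderiv ℝ g x (ev j) - cl (F x) (ev j)‖ ^ p)
        ≤ ∑ _j : Fin 3, ENNReal.ofReal κ := by
          refine Finset.sum_le_sum fun j _ => le_trans (lintegral_mono fun x => ?_) hE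
          apply ENNReal.ofReal_le_ofReal
          apply Real.rpow_le_rpow (norm_nonneg _) _ hp0.le
          have h1 := ContinuousLinearMap.le_opNorm (fderiv ℝ g x - cl (F x)) (ev j)
          rw [hev, mul_one] at h1
          exact h1
      _ = 3 * ENNReal.ofReal κ := by simp

/-- the image of a connected set -/
theorem connected_of_homeo {f : V → V} (hf : St.IsHomeo Ω Λ f) (h : IsConnected Λ) :
    IsConnected Ω := by
  obtain ⟨k, ⟨h2, h3⟩, h4, h5⟩ := hf
  have h6 : Ω = k '' Λ := by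
    ext x
    exact ⟨fun hx => ⟨f x, (h2 x hx).1, (h2 x hx).2⟩, by
      rintro ⟨y, hy, rfl⟩
      exact (h3 y hy).1⟩
  rw [h6]
  exact h.image k h5

theorem homeo_symm {f : V → V} (hf : St.IsHomeo Ω Λ f) : ∃ k, St.IsHomeo Λ Ω k := by
  obtain ⟨k, ⟨h2, h3⟩, h4, h5⟩ := hf
  exact ⟨k, f, ⟨h3, h2⟩, h5, h4⟩

/-- the complements of a small set and of its image are domains -/
theorem dom_of_small (hΩ : St.IsBoundedDomain Ω) (hΛ : St.IsBoundedDomain Λ) (hB : B ⊆ Ω)
    (hBo : IsOpen (Ω \ B)) {f : V → V} (hf : St.IsHomeo Ω Λ f)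
    (hn : RT.SmallSlices B f ∨ NullProj (f '' B)) :
    St.IsBoundedDomain (Ω \ B) ∧ St.IsBoundedDomain (Λ \ f '' B) := by
  have hfU := homeo_restrict hB hf
  have hpre : IsPreconnected (Λ \ f '' B) := by
    rcases hn with h | h
    · exact conn_of_slices hΩ hB hBo hf (sliceNull_of h)
    · exact conn_of_null specConn hΩ hΛ hB hBo hf (Or.inr h)
  have hne : (Ω \ B).Nonempty ∧ (Λ \ f '' B).Nonempty := by
    rcases hn with h | h
    · have h0 := RT.null_of_small hΩ.1 hB hBo h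
      have h1 : (Ω \ B).Nonempty := by
        by_contra he
        rw [not_nonempty_iff_eq_empty, sdiff_eq_empty] at he
        have h2 := measure_mono_null he h0
        exact (hΩ.1.measure_pos volume hΩ.2.1.nonempty).ne' h2
      obtain ⟨x, hx⟩ := h1
      obtain ⟨k, ⟨h2, -⟩, -, -⟩ := hfU
      exact ⟨⟨x, hx⟩, ⟨_, (h2 x hx).1⟩⟩
    · have h0 : volume (f '' B) = 0 := by
        have h3 : f '' B ⊆ (fun y : V => y 0) ⁻¹' ((fun y : V => y 0) '' (f '' B)) :=
          subset_preimage_image _ _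
        refine measure_mono_null h3 ?_
        have q := Measure.quasiMeasurePreserving_eval (fun _ : Fin 3 => (volume : Measure ℝ)) 0
        exact q.preimage_null (h 0)
      have h1 : (Λ \ f '' B).Nonempty := by
        by_contra he
        rw [not_nonempty_iff_eq_empty, sdiff_eq_empty] at he
        have h2 := measure_mono_null he h0
        exact (hΛ.1.measure_pos volume hΛ.2.1.nonempty).ne' h2
      obtain ⟨y, hy⟩ := h1
      obtain ⟨k, ⟨-, h2⟩, -, -⟩ := hfU
      exact ⟨⟨_, (h2 y hy).1⟩, ⟨y, hy⟩⟩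
  have hc : IsConnected (Λ \ f '' B) := ⟨hne.2, hpre⟩
  refine ⟨⟨hBo, connected_of_homeo hfU hc, ?_⟩, ⟨isOpen_diff_image hΛ.1 hB hBo hf, hc, ?_⟩⟩
  · obtain ⟨R, hR⟩ := hΩ.2.2
    exact ⟨R, fun x hx => hR x hx.1⟩
  · obtain ⟨R, hR⟩ := hΛ.2.2
    exact ⟨R, fun x hx => hR x hx.1⟩

/-- **the step of the filtration** -/
theorem FA.step (hT : FineT) (hp : 1 ≤ p) (hΩ : St.IsBoundedDomain Ω)
    (hΛ : St.IsBoundedDomain Λ) (hB : B ⊆ Ω) (hBo : IsOpen (Ω \ B)) {f : V → V} {F : V → Mat}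
    (hf : St.IsHomeo Ω Λ f) (hF : St.IsSobolev p Ω f F)
    (hFA : FA p (Ω \ B) (Λ \ f '' B) f F)
    (hn : (p < 3 ∧ RT.SmallSlices B f) ∨ NullProj (f '' B)) : FA p Ω Λ f F := by
  intro σ hσ hσ0 ε hε
  have h2p : (0 : ℝ) < 2 ^ (p - 1) := by positivity
  set ε₁ : ℝ := ε / (2 ^ (p - 1) * 5) with hε₁
  have hε₁0 : 0 < ε₁ := by positivity
  have hσ' : ContinuousOn (fun x => σ x / 2) Ω := hσ.div_const 2
  obtain ⟨g, G, hg, hG, hgs, hgi, hgB, hgσ, hgint⟩ := exists_offC hp hΩ hΛ hB hBo hf hF hFA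
    (σ₀ := fun x => σ x / 2) (hσ'.mono sdiff_subset)
    (fun x hx => by have := hσ0 x hx.1; linarith) hε₁0
  have hO : FineOff Ω Λ B g G :=
    H880.fineOff_of_regular hp hΩ hΛ hB hBo hg hG (Or.inl ⟨hgs, hgi⟩)
  have hFAg : FA p Ω Λ g G := by
    rcases hn with ⟨hp3, hs⟩ | h
    · rcases B.eq_empty_or_nonempty with he | hne
      · refine hT p Ω Λ B g G hp hΩ hΛ hB hBo hg hG hO fun k => ?_
        rw [he, image_empty, image_empty, measure_empty]
      · intro s hs1 hs2 e he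
        exact RT.H655.fine_RT specApp RT.T4.specTop2_all RT.H739.specTiling2 hp hp3 hΩ hΛ hB hne
          hBo hg hG hO (smallSlices_congr hgB hs) hs1 hs2 he
    · refine hT p Ω Λ B g G hp hΩ hΛ hB hBo hg hG hO ?_
      rwa [image_congr hgB]
  obtain ⟨P, h1, h2, h3⟩ := hFAg (fun x => σ x / 2) hσ'
    (fun x hx => by have := hσ0 x hx; linarith) ε₁ hε₁0
  refine ⟨P, h1, fun x hx => ?_, ?_⟩
  · have h4 : ‖g x - f x‖ ≤ σ x / 2 := by
      by_cases hxB : x ∈ B
      · rw [hgB x hxB, sub_self, norm_zero]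
        have := hσ0 x hx
        linarith
      · exact hgσ x ⟨hx, hxB⟩
    have h5 := norm_add_le (P x - g x) (g x - f x)
    rw [sub_add_sub_cancel] at h5
    have h6 := h2 x hx
    linarith
  · refine (H880.err_le hp hΩ.1 hG (diffeo_smooth h1)).trans ?_
    have h4 := (H880.lintegral_le_int hp hF hG).trans
      (mul_le_mul_right (ENNReal.ofReal_le_ofReal hgint) 4)
    calc (2 : ℝ≥0∞) ^ (p - 1) * (err p Ω g G P + ((∫⁻ x in Ω, ENNReal.ofReal (‖g x - f x‖ ^ p)) +
          ∑ j, ∫⁻ x in Ω, ENNReal.ofReal (‖cl (G x) (ev j) - cl (F x) (ev j)‖ ^ p)))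
        ≤ 2 ^ (p - 1) * (ENNReal.ofReal ε₁ + 4 * ENNReal.ofReal ε₁) := by
          gcongr
      _ = ENNReal.ofReal (2 ^ (p - 1) * (5 * ε₁)) := by
          rw [ENNReal.ofReal_mul h2p.le, ← ENNReal.ofReal_rpow_of_pos (by norm_num),
            ENNReal.ofReal_mul (by norm_num)]
          norm_num
          ring
      _ = ENNReal.ofReal ε := by
          congr 1
          rw [hε₁]
          field_simp

/-- regular maps are finely approximable -/
theorem fa_of_reg (hT : FineT) (hp : 1 ≤ p) (hΩ : St.IsBoundedDomain Ω)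
    (hΛ : St.IsBoundedDomain Λ) {f : V → V} {F : V → Mat} (hf : St.IsHomeo Ω Λ f)
    (hF : St.IsSobolev p Ω f F) (hR : Reg Ω Λ f) : FA p Ω Λ f F := by
  have hreg : RegularOn Ω f → FA p Ω Λ f F := fun h =>
    hT p Ω Λ ∅ f F hp hΩ hΛ (empty_subset _) (by rw [sdiff_empty]; exact hΩ.1) hf hF
      (H880.fineOff_of_regular hp hΩ hΛ (empty_subset _) (by rw [sdiff_empty]; exact hΩ.1) hf hF
        (by rwa [sdiff_empty])) fun k => by rw [image_empty, image_empty, measure_empty]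
  rcases hR with h | h | ⟨c, hc, hloc⟩ | h
  · exact hreg (Or.inl h)
  · exact hreg (Or.inr h)
  · exact fa_of_fineV hp hΩ hf hF (specFineLoc Ω Λ f c hΩ.1 (PK.isBounded_of_domain hΩ) hΛ.1
      hΛ.2.1.isPreconnected (PK.isBounded_of_domain hΛ) hf hc hloc)
  · exact fa_of_fineV hp hΩ hf hF (fineV_of_generated h)

/-- **towers are finely approximable** -/
theorem fa_of_tower (hT : FineT) (hp : 1 ≤ p) {f : V → V} (h : Tower p Ω Λ f) :
    ∀ F : V → Mat, St.IsBoundedDomain Ω → St.IsBoundedDomain Λ → St.IsHomeo Ω Λ f →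
      St.IsSobolev p Ω f F → FA p Ω Λ f F := by
  induction h with
  | reg h => exact fun F hΩ hΛ hf hF => fa_of_reg hT hp hΩ hΛ hf hF h
  | step hB hBo hs _ ih =>
    intro F hΩ hΛ hf hF
    have hn := V4.small_cases hΩ hB hf hF hs
    obtain ⟨d1, d2⟩ := dom_of_small hΩ hΛ hB hBo hf (hn.imp And.right id)
    exact FA.step hT hp hΩ hΛ hB hBo hf hF
      (ih F d1 d2 (homeo_restrict hB hf) (RED.isSobolev_mono hBo sdiff_subset hF)) hn

/-- fine approximability implies diffeomorphic approximability -/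
theorem FA.approximable (hp : 1 ≤ p) (hΩ : St.IsBoundedDomain Ω) (hΛ : St.IsBoundedDomain Λ)
    {f : V → V} {F : V → Mat} (hf : St.IsHomeo Ω Λ f) (hF : St.IsSobolev p Ω f F)
    (h : FA p Ω Λ f F) : St.DiffeoApproximable p Ω Λ f F := by
  have hfc : ContinuousOn f Ω := hf.choose_spec.2.1
  refine H880.approximable_of hp hΩ hΛ hfc hF
    (b := fun k : ℕ => ENNReal.ofReal (1 / ((k : ℝ) + 1))) ?_ (fun k => ENNReal.ofReal_ne_top)
    fun k => ?_
  · have h1 := ENNReal.tendsto_ofReal (tendsto_one_div_add_atTop_nhds_zero_nat (𝕜 := ℝ))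
    rwa [ENNReal.ofReal_zero] at h1
  · obtain ⟨P, h1, -, h3⟩ := h (fun _ => 1) continuousOn_const (fun _ _ => one_pos)
      (1 / ((k : ℝ) + 1)) (by positivity)
    exact ⟨P, h1, h3⟩

/-- **towers are approximable** -/
theorem tower_approximable (hT : FineT) (hp : 1 ≤ p) (hΩ : St.IsBoundedDomain Ω)
    (hΛ : St.IsBoundedDomain Λ) {f : V → V} {F : V → Mat} (hf : St.IsHomeo Ω Λ f)
    (hF : St.IsSobolev p Ω f F) (h : Tower p Ω Λ f) : St.DiffeoApproximable p Ω Λ f F :=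
  (fa_of_tower hT hp h F hΩ hΛ hf hF).approximable hp hΩ hΛ hf hF

/-- a tame map is a tower of height one -/
theorem tower_of_tame {f : V → V} (h : H655.V4.Tame p Ω Λ f) : Tower p Ω Λ f := by
  obtain ⟨K, hK, hKo, hR, hs⟩ := h
  exact Tower.step hK hKo hs (Tower.reg hR)

/-- **the equivalence** -/
theorem tower_iff (hT : FineT) (hp : 1 ≤ p) (hΩ : St.IsBoundedDomain Ω)
    (hΛ : St.IsBoundedDomain Λ) {f : V → V} {F : V → Mat} (hf : St.IsHomeo Ω Λ f)
    (hF : St.IsSobolev p Ω f F) :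
    TowerApproximable p Ω Λ f F ↔ St.DiffeoApproximable p Ω Λ f F := by
  constructor
  · rintro ⟨g, G, hg, hlim⟩
    exact approximable_of_limit hp hΩ hΛ hf hF (fun k => (hg k).2.1)
      (fun k => tower_approximable hT hp hΩ hΛ (hg k).1 (hg k).2.1 (hg k).2.2) hlim
  · intro h
    obtain ⟨g, G, hg, hlim⟩ := (H655.V4.tame_iff hp hΩ hΛ hf hF).2 h
    exact ⟨g, G, fun k => ⟨(hg k).1, (hg k).2.1, tower_of_tame (hg k).2.2⟩, hlim⟩

end Vale.Agent.P073.H694
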