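import Vale.Agent.P073.H655.Off

/-!
# P073, mixed singular sets: gluing with `f` on `B`
-/

namespace Vale.Agent.P073.H694

open MeasureTheory Set Filter Topology Metric Vale.Agent.P073.St Vale.Agent.P073.AB
open Vale.Agent.P073.SQ (ev)
open Vale.Agent.P073.H655
open scoped ContDiff ENNReal

variable {p : ℝ} {Ω Λ B : Set V}

theorem norm_le_sum_ev (A : V →L[ℝ] V) : ‖A‖ ≤ ∑ j, ‖A (ev j)‖ := by
  refine A.opNorm_le_bound (Finset.sum_nonneg fun _ _ => norm_nonneg _) fun w => ?_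
  have h1 : w = ∑ j, w j • ev j := by
    ext i
    simp [ev, Finset.sum_apply, Pi.single_apply]
  calc ‖A w‖ = ‖∑ j, w j • A (ev j)‖ := by
        conv_lhs => rw [h1]
        rw [map_sum]
        simp only [map_smul]
    _ ≤ ∑ j, ‖w j • A (ev j)‖ := norm_sum_le _ _
    _ ≤ ∑ j, ‖w‖ * ‖A (ev j)‖ := by
        refine Finset.sum_le_sum fun j _ => ?_
        rw [norm_smul]
        exact mul_le_mul_of_nonneg_right (norm_le_pi_norm w j) (norm_nonneg _)
    _ = (∑ j, ‖A (ev j)‖) * ‖w‖ := by rw [← Finset.mul_sum, mul_comm]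

theorem rpow_le_sum_ev (hp : 1 ≤ p) (A : V →L[ℝ] V) :
    ‖A‖ ^ p ≤ 3 ^ (p - 1) * ∑ j, ‖A (ev j)‖ ^ p := by
  have h := Real.rpow_sum_le_const_mul_sum_rpow_of_nonneg (s := Finset.univ)
    (f := fun j : Fin 3 => ‖A (ev j)‖) hp (fun j _ => norm_nonneg _)
  have hc : ((Finset.univ : Finset (Fin 3)).card : ℝ) = 3 := by simp
  rw [hc] at h
  exact (Real.rpow_le_rpow (norm_nonneg _) (norm_le_sum_ev A) (by linarith)).trans h

open Classical in
/-- **homeomorphisms equal to `f` on `B`, smooth off `B`, close to `f` in `W^{1,p}`** -/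
theorem exists_offB (hp : 1 ≤ p) (hΩ : St.IsBoundedDomain Ω) (hΛ : St.IsBoundedDomain Λ)
    (hB : B ⊆ Ω) (hBo : IsOpen (Ω \ B)) {f : V → V} {F : V → Mat} (hf : St.IsHomeo Ω Λ f)
    (hF : St.IsSobolev p Ω f F)
    (happ : ∀ σ : V → ℝ, ContinuousOn σ (Ω \ B) → (∀ x ∈ Ω \ B, 0 < σ x) → ∀ ε : ℝ, 0 < ε →
      ∃ P : V → V, St.IsDiffeo (Ω \ B) (Λ \ f '' B) P ∧ (∀ x ∈ Ω \ B, ‖P x - f x‖ ≤ σ x) ∧
        AB.err p (Ω \ B) f F P ≤ ENNReal.ofReal ε) {ε : ℝ} (hε : 0 < ε) :
    ∃ (g : V → V) (G : V → Mat), St.IsHomeo Ω Λ g ∧ St.IsSobolev p Ω g G ∧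
      ContDiffOn ℝ 1 g (Ω \ B) ∧ (∀ x ∈ Ω \ B, ∀ v, fderiv ℝ g x v = 0 → v = 0) ∧
      (∀ x ∈ B, g x = f x) ∧
      int Ω (fun x => euc (g x - f x) ^ p + frob (G x - F x) ^ p) ≤ ε := by
  have hp0 : 0 < p := by linarith
  have hBo' : IsOpen (Λ \ f '' B) := isOpen_diff_image hΛ.1 hB hBo hf
  have hfU := homeo_restrict hB hf
  have hfc : ContinuousOn f Ω := by
    obtain ⟨_, -, h, -⟩ := hf
    exact h
  -- the function vanishing on `B`
  obtain ⟨h, hsupp, hh, hr⟩ := hBo.exists_contDiff_support_eq (n := ⊤)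
  have hh0 : ∀ x, 0 ≤ h x := fun x => (hr (mem_range_self x)).1
  have hpos : ∀ x ∈ Ω \ B, 0 < h x := by
    intro x hx
    have h1 : x ∈ Function.support h := by rw [hsupp]; exact hx
    exact lt_of_le_of_ne (hh0 x) (Ne.symm h1)
  have hhB : ∀ x, x ∉ Ω \ B → h x = 0 := by
    intro x hx
    by_contra h1
    have : x ∈ Function.support h := h1
    rw [hsupp] at this
    exact hx this
  -- the distance in the target
  have hΛc : (Λ \ f '' B)ᶜ.Nonempty := by
    have h1 : Λᶜ.Nonempty := by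
      rw [nonempty_compl]
      rintro rfl
      exact NormedSpace.unbounded_univ ℝ V (PK.isBounded_of_domain hΛ)
    exact h1.mono (compl_subset_compl.2 sdiff_subset)
  set e : V → ℝ := fun x => infDist (f x) (Λ \ f '' B)ᶜ with he
  have hec : ContinuousOn e (Ω \ B) :=
    (continuous_infDist_pt _).comp_continuousOn (hfc.mono sdiff_subset)
  have hepos : ∀ x ∈ Ω \ B, 0 < e x := by
    intro x hx
    obtain ⟨k, ⟨h1, -⟩, -, -⟩ := hfU
    exact (hBo'.isClosed_compl.notMem_iff_infDist_pos hΛc).1 fun h => h (h1 x hx).1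
  have h6 : (0 : ℝ) < 6 ^ p := by positivity
  obtain ⟨g, hg, hgf, hgE⟩ := happ (fun x => min (h x ^ 2) (e x / 2))
    (((hh.continuous.pow 2).continuousOn).inf (hec.div_const 2))
    (fun x hx => lt_min (pow_pos (hpos x hx) 2) (by have := hepos x hx; linarith))
    (ε / 6 ^ p) (div_pos hε h6)
  have hb1 : ∀ x ∈ Ω \ B, ‖g x - f x‖ ≤ h x ^ 2 := fun x hx => (hgf x hx).trans (min_le_left _ _)
  have hb2 : ∀ x ∈ Ω \ B, ‖g x - f x‖ ≤ e x / 2 := fun x hx => (hgf x hx).trans (min_le_right _ _)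
  have hgs : ContDiffOn ℝ 1 g (Ω \ B) := (diffeo_smooth hg).of_le (by simp)
  have hgh : St.IsHomeo (Ω \ B) (Λ \ f '' B) g := by
    obtain ⟨k, h1, h3, h4⟩ := hg
    exact ⟨k, h1, (smooth_of_sm h3).continuousOn, (smooth_of_sm h4).continuousOn⟩
  have hGh : St.IsHomeo Ω Λ (fun x => if x ∈ B then f x else g x) :=
    glue_homeo hΩ.1 hΛ.1 hB hBo hf hgh (δ := fun x => h x ^ 2)
      (hh.continuous.pow 2).continuousOn
      (fun x hx => by
        have : h x = 0 := hhB x fun h => h.2 hx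
        simp only [this]
        norm_num) hb1 hb2
  obtain ⟨R, -, hR⟩ := norm_bound_of_domain hΛ
  -- measurability
  have hm1 : AEMeasurable (fun x => ENNReal.ofReal (‖g x - f x‖ ^ p))
      (volume.restrict (Ω \ B)) := by
    have h1 : AEMeasurable (fun x => g x - f x) (volume.restrict (Ω \ B)) :=
      (hgs.continuousOn.sub (hfc.mono sdiff_subset)).aemeasurable hBo.measurableSet
    exact (h1.norm.pow_const p).ennreal_ofReal
  have hm2 : ∀ j, AEMeasurable (fun x =>
      ENNReal.ofReal (‖fderiv ℝ g x (ev j) - cl (F x) (ev j)‖ ^ p))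
      (volume.restrict (Ω \ B)) := by
    intro j
    have h1 : AEMeasurable (fun x => fderiv ℝ g x (ev j)) (volume.restrict (Ω \ B)) :=
      ((hgs.continuousOn_fderiv_of_isOpen hBo le_rfl).clm_apply
        continuousOn_const).aemeasurable hBo.measurableSet
    have h2 : AEMeasurable (fun x => cl (F x) (ev j)) (volume.restrict (Ω \ B)) :=
      (((ContinuousLinearMap.apply ℝ V (ev j)).continuous.comp_aestronglyMeasurable
        (PK.IsSob.aesm hF)).aemeasurable).mono_measure (Measure.restrict_mono sdiff_subset le_rfl)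
    exact ((h1.sub h2).norm.pow_const p).ennreal_ofReal
  have hsum : err p (Ω \ B) f F g = ∫⁻ x in Ω \ B, (ENNReal.ofReal (‖g x - f x‖ ^ p) +
      ∑ j, ENNReal.ofReal (‖fderiv ℝ g x (ev j) - cl (F x) (ev j)‖ ^ p)) := by
    rw [lintegral_add_left' hm1, lintegral_finsetSum' _ fun j _ => hm2 j]
    rfl
  -- the energy
  have hE : ∫⁻ x in Ω \ B, ENNReal.ofReal (‖fderiv ℝ g x - cl (F x)‖ ^ p) ≠ ⊤ := by
    refine ne_top_of_le_ne_top (b := ENNReal.ofReal (3 ^ (p - 1)) * err p (Ω \ B) f F g)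
      (ENNReal.mul_ne_top ENNReal.ofReal_ne_top
        (ne_top_of_le_ne_top ENNReal.ofReal_ne_top hgE)) ?_
    rw [hsum, ← lintegral_const_mul' _ _ ENNReal.ofReal_ne_top]
    refine lintegral_mono fun x => ?_
    rw [← ENNReal.ofReal_sum_of_nonneg fun j _ => by positivity,
      ← ENNReal.ofReal_add (by positivity) (Finset.sum_nonneg fun j _ => by positivity),
      ← ENNReal.ofReal_mul (by positivity)]
    apply ENNReal.ofReal_le_ofReal
    refine (rpow_le_sum_ev hp _).trans ?_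
    apply mul_le_mul_of_nonneg_left _ (by positivity)
    have h1 : (0 : ℝ) ≤ ‖g x - f x‖ ^ p := by positivity
    have h2 : ∑ j, ‖(fderiv ℝ g x - cl (F x)) (ev j)‖ ^ p =
        ∑ j, ‖fderiv ℝ g x (ev j) - cl (F x) (ev j)‖ ^ p := rfl
    rw [h2]
    linarith
  have hS := sobolev_across hp hΩ hBo hfc hF hgs
    (by
      obtain ⟨_, -, h, -⟩ := hGh
      exact h)
    (B := R) (fun x hx => by
      obtain ⟨_, ⟨h, -⟩, -, -⟩ := hGh
      exact hR _ (h x hx).1) hh hsupp hh0 hb1 hE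
  have hGo : ∀ x ∈ Ω \ B, (fun x => if x ∈ B then f x else g x) =ᶠ[𝓝 x] g := by
    intro x hx
    filter_upwards [hBo.mem_nhds hx] with z hz using if_neg hz.2
  refine ⟨_, _, hGh, hS, ?_, ?_, ?_, ?_⟩
  · exact hgs.congr fun x hx => if_neg hx.2
  · intro x hx v hv'
    rw [(hGo x hx).fderiv_eq] at hv'
    exact diffeo_inj hBo hBo' hg hx hv'
  · exact fun x hx => if_pos hx
  -- the distance
  set u : V → ℝ := fun x => euc ((if x ∈ B then f x else g x) - f x) ^ p +
    frob ((fun i j => if x ∈ B then F x i j else fderiv ℝ g x (ev j) i) - F x) ^ p with hu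
  have hnn : ∀ x, 0 ≤ u x := fun x =>
    add_nonneg (Real.rpow_nonneg (Real.sqrt_nonneg _) _) (Real.rpow_nonneg (Real.sqrt_nonneg _) _)
  set E : V → ℝ≥0∞ := (Ω \ B).indicator
    (fun x => ENNReal.ofReal (‖g x - f x‖ ^ p) +
      ∑ j, ENNReal.ofReal (‖fderiv ℝ g x (ev j) - cl (F x) (ev j)‖ ^ p)) with hEd
  have hub : ∀ x ∈ Ω, ENNReal.ofReal (u x) ≤ ENNReal.ofReal (6 ^ p) * E x := by
    intro x hx
    by_cases hxB : x ∈ B
    · have h0 : u x = 0 := by
        rw [hu]
        simp only [if_pos hxB, sub_self]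
        have e1 : euc (0 : V) = 0 := by simp [euc]
        have e2 : frob (0 : Mat) = 0 := by simp [frob]
        rw [e1, e2, Real.zero_rpow hp0.ne', add_zero]
      rw [h0, ENNReal.ofReal_zero]
      exact zero_le
    · have hxU : x ∈ Ω \ B := ⟨hx, hxB⟩
      rw [hEd, indicator_of_mem hxU, ← ENNReal.ofReal_sum_of_nonneg fun j _ => by positivity,
        ← ENNReal.ofReal_add (by positivity) (Finset.sum_nonneg fun j _ => by positivity),
        ← ENNReal.ofReal_mul (by positivity)]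
      apply ENNReal.ofReal_le_ofReal
      have h1 := H880.final_pt hp ((if x ∈ B then f x else g x) - f x)
        ((fun i j => if x ∈ B then F x i j else fderiv ℝ g x (ev j) i) - F x)
        (fun j => fderiv ℝ g x (ev j) - cl (F x) (ev j)) (fun i j => by
          show (if x ∈ B then F x i j else fderiv ℝ g x (ev j) i) - F x i j =
            fderiv ℝ g x (ev j) i - cl (F x) (ev j) i
          rw [if_neg hxB, PK.cl_apply]
          congr 1
          rw [Finset.sum_eq_single j]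
          · simp [ev]
          · intro l _ hl
            simp [ev, hl]
          · simp)
      refine h1.trans (le_of_eq ?_)
      rw [if_neg hxB]
  have hint : ∫⁻ x in Ω, ENNReal.ofReal (u x) ≤ ENNReal.ofReal ε := by
    calc ∫⁻ x in Ω, ENNReal.ofReal (u x)
        ≤ ∫⁻ x in Ω, ENNReal.ofReal (6 ^ p) * E x := setLIntegral_mono' hΩ.1.measurableSet hub
      _ = ENNReal.ofReal (6 ^ p) * ∫⁻ x in Ω, E x :=
          lintegral_const_mul' _ _ ENNReal.ofReal_ne_top
      _ ≤ ENNReal.ofReal (6 ^ p) * ENNReal.ofReal (ε / 6 ^ p) := by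
          gcongr
          refine (setLIntegral_le_lintegral _ _).trans ?_
          rw [hEd, lintegral_indicator hBo.measurableSet, ← hsum]
          exact hgE
      _ = ENNReal.ofReal ε := by
          rw [← ENNReal.ofReal_mul (by positivity), mul_div_cancel₀ _ h6.ne']
  have h1 : int Ω u ≤ (∫⁻ x in Ω, ENNReal.ofReal (u x)).toReal := by
    unfold int
    refine (le_abs_self _).trans ?_
    rw [← Real.norm_eq_abs]
    refine (norm_integral_le_lintegral_norm _).trans (le_of_eq ?_)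
    congr 1
    refine lintegral_congr fun x => ?_
    rw [Real.norm_of_nonneg (hnn x)]
  refine h1.trans ?_
  calc (∫⁻ x in Ω, ENNReal.ofReal (u x)).toReal ≤ (ENNReal.ofReal ε).toReal :=
        ENNReal.toReal_mono ENNReal.ofReal_ne_top hint
    _ = ε := ENNReal.toReal_ofReal hε.le

end Vale.Agent.P073.H694
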