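import Vale.Agent.P073.H694.Filt
import Vale.Agent.P073.H655.FineT
import Vale.Agent.P073.RT.H739.Mesh

/-!
# P073: towers of small singular sets, unconditional
-/

namespace Vale.Agent.P073.H694

open MeasureTheory Set Filter Topology Metric Vale.Agent.P073.St Vale.Agent.P073.AB

variable {p : ℝ} {Ω Λ : Set V}

theorem fineT : FineT := fun _ _ _ _ _ _ hp hΩ hΛ hK hKo hf hF hO hn =>
  H655.fine_T_of H739.specVan H705.specSqz specFill
    (fun _ _ _ _ h1 h2 h3 h4 h5 h6 h7 h8 h9 => RT.H739.boxes_mesh h1 h2 h3 h4 h5 h6 h7 h8 h9)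
    hp hΩ hΛ hK hKo hf hF hO hn

/-- **towers are approximable** -/
theorem tower_approximable' (hp : 1 ≤ p) (hΩ : St.IsBoundedDomain Ω)
    (hΛ : St.IsBoundedDomain Λ) {f : V → V} {F : V → Mat} (hf : St.IsHomeo Ω Λ f)
    (hF : St.IsSobolev p Ω f F) (h : Tower p Ω Λ f) : St.DiffeoApproximable p Ω Λ f F :=
  tower_approximable fineT hp hΩ hΛ hf hF h

/-- **the equivalence** -/
theorem tower_iff' (hp : 1 ≤ p) (hΩ : St.IsBoundedDomain Ω) (hΛ : St.IsBoundedDomain Λ)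
    {f : V → V} {F : V → Mat} (hf : St.IsHomeo Ω Λ f) (hF : St.IsSobolev p Ω f F) :
    TowerApproximable p Ω Λ f F ↔ St.DiffeoApproximable p Ω Λ f F :=
  tower_iff fineT hp hΩ hΛ hf hF

end Vale.Agent.P073.H694
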